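import Mathlib

/-! Areas of planar sets in three-space for the normalised two-dimensional Hausdorff measure. -/

set_option autoImplicit false
open MeasureTheory
open scoped ENNReal

namespace Crest.Agent.R211

abbrev E3 := EuclideanSpace ℝ (Fin 3)
abbrev E2 := EuclideanSpace ℝ (Fin 2)

/-- area of the parallelogram spanned by `a`, `b` -/
noncomputable def gram (a b : E3) : ℝ := Real.sqrt (‖a‖ ^ 2 * ‖b‖ ^ 2 - inner ℝ a b ^ 2)

lemma gram_nonneg (a b : E3) : 0 ≤ gram a b := Real.sqrt_nonneg _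

/-- the determinant of three vectors -/
def det3 (a b c : E3) : ℝ :=
  a 0 * (b 1 * c 2 - b 2 * c 1) - a 1 * (b 0 * c 2 - b 2 * c 0) + a 2 * (b 0 * c 1 - b 1 * c 0)

/-- orthogonal projection along `u` -/
noncomputable def proj (u y : E3) : E3 := y - (inner ℝ y u / ‖u‖ ^ 2) • u

lemma inner3 (a b : E3) : inner ℝ a b = a 0 * b 0 + a 1 * b 1 + a 2 * b 2 := by
  simp [PiLp.inner_apply, Fin.sum_univ_three]; ring

lemma normsq3 (a : E3) : ‖a‖ ^ 2 = a 0 ^ 2 + a 1 ^ 2 + a 2 ^ 2 := by
  rw [← real_inner_self_eq_norm_sq, inner3]; ring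

/-- the linear map `x ↦ x 0 • a + x 1 • b` -/
noncomputable def lin2 (a b : E3) : E2 →ₗ[ℝ] E3 where
  toFun x := x 0 • a + x 1 • b
  map_add' x y := by simp [add_smul]; abel
  map_smul' c x := by simp [mul_smul]

lemma normDet_lin2 (a b : E3) : (lin2 a b).normDet = gram a b := by
  have h := (lin2 a b).normDet_sq_eq_det_gram (EuclideanSpace.basisFun (Fin 2) ℝ)
  have h0 : lin2 a b (EuclideanSpace.basisFun (Fin 2) ℝ 0) = a := by simp [lin2]
  have h1 : lin2 a b (EuclideanSpace.basisFun (Fin 2) ℝ 1) = b := by simp [lin2]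
  rw [Matrix.det_fin_two] at h
  simp only [Matrix.gram_apply, h0, h1, real_inner_self_eq_norm_sq] at h
  unfold gram
  symm
  rw [Real.sqrt_eq_iff_eq_sq _ (LinearMap.normDet_nonneg _)]
  · have : (((lin2 a b).normDet ^ 2 : ℝ)) = ‖a‖ ^ 2 * ‖b‖ ^ 2 - inner ℝ a b * inner ℝ b a := by
      simpa using h
    rw [this, real_inner_comm a b]; ring
  · have := abs_real_inner_le_norm a b
    have h2 : inner ℝ a b ^ 2 ≤ (‖a‖ * ‖b‖) ^ 2 := by
      rw [← sq_abs]; exact pow_le_pow_left₀ (abs_nonneg _) this 2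
    nlinarith

/-- measurable equivalence of the Euclidean plane with `ℝ × ℝ` -/
noncomputable def e2equiv : E2 ≃ᵐ ℝ × ℝ :=
  (MeasurableEquiv.toLp 2 (Fin 2 → ℝ)).symm.trans MeasurableEquiv.finTwoArrow

lemma e2equiv_apply (x : E2) : e2equiv x = (x 0, x 1) := rfl

lemma e2equiv_mp : MeasurePreserving e2equiv volume volume :=
  (volume_preserving_finTwoArrow ℝ).comp (PiLp.volume_preserving_ofLp (Fin 2))

theorem area_image (c a b : E3) (S : Set (ℝ × ℝ)) :
    μHE[2] {x : E3 | ∃ z ∈ S, x = c + z.1 • a + z.2 • b} = ENNReal.ofReal (gram a b) * volume S := by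
  have h1 : {x : E3 | ∃ z ∈ S, x = c + z.1 • a + z.2 • b} =
      (fun y => c + y) '' ((lin2 a b) '' (e2equiv ⁻¹' S)) := by
    ext x
    simp only [Set.mem_ofPred_eq, Set.mem_image, Set.mem_preimage]
    constructor
    · rintro ⟨z, hz, rfl⟩
      refine ⟨_, ⟨e2equiv.symm z, by simpa using hz, rfl⟩, ?_⟩
      have h0 : (e2equiv.symm z) 0 = z.1 := by
        have := e2equiv_apply (e2equiv.symm z)
        rw [MeasurableEquiv.apply_symm_apply] at this
        exact (congrArg Prod.fst this).symm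
      have h1 : (e2equiv.symm z) 1 = z.2 := by
        have := e2equiv_apply (e2equiv.symm z)
        rw [MeasurableEquiv.apply_symm_apply] at this
        exact (congrArg Prod.snd this).symm
      simp [lin2, h0, h1, add_assoc]
    · rintro ⟨_, ⟨y, hy, rfl⟩, rfl⟩
      exact ⟨e2equiv y, hy, by simp [lin2, e2equiv_apply, add_assoc]⟩
  rw [h1, (isometry_add_left c).euclideanHausdorffMeasure_image]
  have h2 := (lin2 a b).euclideanHausdorffMeasure_image_eq_normDet_mul_volume (e2equiv ⁻¹' S)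
  simp only [finrank_euclideanSpace, Fintype.card_fin] at h2
  rw [h2, normDet_lin2, e2equiv_mp.measure_preimage_equiv]

lemma volume_stdTri :
    volume {z : ℝ × ℝ | 0 ≤ z.1 ∧ 0 ≤ z.2 ∧ z.1 + z.2 ≤ 1} = ENNReal.ofReal (1 / 2) := by
  have hm : MeasurableSet {z : ℝ × ℝ | 0 ≤ z.1 ∧ 0 ≤ z.2 ∧ z.1 + z.2 ≤ 1} := by
    apply IsClosed.measurableSet
    refine (isClosed_le continuous_const continuous_fst).inter
      ((isClosed_le continuous_const continuous_snd).inter
        (isClosed_le (continuous_fst.add continuous_snd) continuous_const))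
  rw [Measure.volume_eq_prod, Measure.prod_apply hm]
  have h1 : ∀ x : ℝ, volume (Prod.mk x ⁻¹' {z : ℝ × ℝ | 0 ≤ z.1 ∧ 0 ≤ z.2 ∧ z.1 + z.2 ≤ 1}) =
      (Set.Icc (0 : ℝ) 1).indicator (fun x => ENNReal.ofReal (1 - x)) x := by
    intro x
    by_cases hx : x ∈ Set.Icc (0 : ℝ) 1
    · rw [Set.indicator_of_mem hx]
      have : Prod.mk x ⁻¹' {z : ℝ × ℝ | 0 ≤ z.1 ∧ 0 ≤ z.2 ∧ z.1 + z.2 ≤ 1} = Set.Icc 0 (1 - x) := by
        ext y
        simp only [Set.mem_preimage, Set.mem_ofPred_eq, Set.mem_Icc]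
        constructor
        · rintro ⟨_, h2, h3⟩; exact ⟨h2, by linarith⟩
        · rintro ⟨h2, h3⟩; exact ⟨hx.1, h2, by linarith⟩
      rw [this, Real.volume_Icc, sub_zero]
    · rw [Set.indicator_of_notMem hx]
      have : Prod.mk x ⁻¹' {z : ℝ × ℝ | 0 ≤ z.1 ∧ 0 ≤ z.2 ∧ z.1 + z.2 ≤ 1} = ∅ := by
        ext y
        simp only [Set.mem_preimage, Set.mem_ofPred_eq, Set.mem_empty_iff_false, iff_false]
        rintro ⟨h1, h2, h3⟩
        exact hx ⟨h1, by linarith⟩
      rw [this, measure_empty]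
  simp_rw [h1]
  rw [lintegral_indicator measurableSet_Icc, ← ofReal_integral_eq_lintegral_ofReal]
  · rw [integral_Icc_eq_integral_Ioc, ← intervalIntegral.integral_of_le zero_le_one]
    congr 1
    rw [intervalIntegral.integral_sub (by simp) (by simp)]
    simp; norm_num
  · exact (continuous_const.sub continuous_id).continuousOn.integrableOn_Icc
  · filter_upwards [ae_restrict_mem measurableSet_Icc] with x hx
    simpa using hx.2

lemma volume_stdSq :
    volume {z : ℝ × ℝ | z.1 ∈ Set.Icc (0 : ℝ) 1 ∧ z.2 ∈ Set.Icc (0 : ℝ) 1} = 1 := by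
  have : {z : ℝ × ℝ | z.1 ∈ Set.Icc (0 : ℝ) 1 ∧ z.2 ∈ Set.Icc (0 : ℝ) 1} =
      Set.Icc (0 : ℝ) 1 ×ˢ Set.Icc (0 : ℝ) 1 := rfl
  rw [this, Measure.volume_eq_prod, Measure.prod_prod]
  simp

lemma mem_convexHull_triple {V : Type*} [AddCommGroup V] [Module ℝ V] (p q r x : V) :
    x ∈ convexHull ℝ ({p, q, r} : Set V) ↔
      ∃ s t : ℝ, 0 ≤ s ∧ 0 ≤ t ∧ s + t ≤ 1 ∧ x = p + s • (q - p) + t • (r - p) := by
  constructor
  · intro hx
    have hc : Convex ℝ {x : V | ∃ s t : ℝ, 0 ≤ s ∧ 0 ≤ t ∧ s + t ≤ 1 ∧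
        x = p + s • (q - p) + t • (r - p)} := by
      rintro x ⟨s, t, hs, ht, hst, rfl⟩ y ⟨s', t', hs', ht', hst', rfl⟩ a b ha hb hab
      refine ⟨a * s + b * s', a * t + b * t', by positivity, by positivity, by nlinarith, ?_⟩
      have : b = 1 - a := by linarith
      subst this
      module
    refine convexHull_min ?_ hc hx
    intro y hy
    simp only [Set.mem_insert_iff, Set.mem_singleton_iff] at hy
    rcases hy with rfl | rfl | rfl
    · exact ⟨0, 0, le_rfl, le_rfl, by norm_num, by simp⟩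
    · exact ⟨1, 0, by norm_num, le_rfl, by norm_num, by simp⟩
    · exact ⟨0, 1, le_rfl, by norm_num, by norm_num, by simp⟩
  · rintro ⟨s, t, hs, ht, hst, rfl⟩
    have hp : p ∈ convexHull ℝ ({p, q, r} : Set V) := subset_convexHull _ _ (by simp)
    have hq : q ∈ convexHull ℝ ({p, q, r} : Set V) := subset_convexHull _ _ (by simp)
    have hr : r ∈ convexHull ℝ ({p, q, r} : Set V) := subset_convexHull _ _ (by simp)
    have h := (convex_convexHull ℝ ({p, q, r} : Set V)).sum_mem (t := Finset.univ)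
      (w := ![1 - s - t, s, t]) (z := ![p, q, r])
      (by intro i _; fin_cases i <;> simp <;> linarith)
      (by simp [Fin.sum_univ_three]; ring)
      (by intro i _; fin_cases i <;> simpa)
    convert h using 1
    simp [Fin.sum_univ_three]
    module

theorem area_triangle (p q r : E3) :
    μHE[2] (convexHull ℝ ({p, q, r} : Set E3)) = ENNReal.ofReal (gram (q - p) (r - p) / 2) := by
  have : convexHull ℝ ({p, q, r} : Set E3) =
      {x : E3 | ∃ z ∈ {z : ℝ × ℝ | 0 ≤ z.1 ∧ 0 ≤ z.2 ∧ z.1 + z.2 ≤ 1},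
        x = p + z.1 • (q - p) + z.2 • (r - p)} := by
    ext x
    rw [mem_convexHull_triple]
    constructor
    · rintro ⟨s, t, hs, ht, hst, rfl⟩; exact ⟨(s, t), ⟨hs, ht, hst⟩, rfl⟩
    · rintro ⟨z, ⟨hs, ht, hst⟩, rfl⟩; exact ⟨z.1, z.2, hs, ht, hst, rfl⟩
  rw [this, area_image, volume_stdTri, ← ENNReal.ofReal_mul (gram_nonneg _ _)]
  congr 1; ring

theorem area_para (c a b : E3) :
    μHE[2] {x : E3 | ∃ s ∈ Set.Icc (0 : ℝ) 1, ∃ t ∈ Set.Icc (0 : ℝ) 1, x = c + s • a + t • b} =
      ENNReal.ofReal (gram a b) := by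
  have : {x : E3 | ∃ s ∈ Set.Icc (0 : ℝ) 1, ∃ t ∈ Set.Icc (0 : ℝ) 1, x = c + s • a + t • b} =
      {x : E3 | ∃ z ∈ {z : ℝ × ℝ | z.1 ∈ Set.Icc (0 : ℝ) 1 ∧ z.2 ∈ Set.Icc (0 : ℝ) 1},
        x = c + z.1 • a + z.2 • b} := by
    ext x
    constructor
    · rintro ⟨s, hs, t, ht, rfl⟩; exact ⟨(s, t), ⟨hs, ht⟩, rfl⟩
    · rintro ⟨z, ⟨hs, ht⟩, rfl⟩; exact ⟨z.1, hs, z.2, ht, rfl⟩
  rw [this, area_image, volume_stdSq, mul_one]

/-! ### projection -/

lemma proj_add (u x y : E3) : proj u (x + y) = proj u x + proj u y := by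
  simp only [proj, inner_add_left, add_div, add_smul]; abel

lemma proj_sub (u x y : E3) : proj u (x - y) = proj u x - proj u y := by
  simp only [proj, inner_sub_left, sub_div, sub_smul]; abel

lemma proj_smul (u : E3) (c : ℝ) (x : E3) : proj u (c • x) = c • proj u x := by
  simp only [proj, real_inner_smul_left, smul_sub, smul_smul, mul_div_assoc]

lemma proj_self {u : E3} (hu : u ≠ 0) : proj u u = 0 := by
  have : ‖u‖ ^ 2 ≠ 0 := pow_ne_zero _ (norm_ne_zero_iff.mpr hu)
  simp [proj, div_self this]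

lemma inner_proj {u : E3} (hu : u ≠ 0) (y : E3) : inner ℝ (proj u y) u = 0 := by
  have : ‖u‖ ^ 2 ≠ 0 := pow_ne_zero _ (norm_ne_zero_iff.mpr hu)
  simp only [proj, inner_sub_left, real_inner_smul_left, real_inner_self_eq_norm_sq]
  field_simp
  ring

lemma proj_of_unit {u : E3} (hu : ‖u‖ = 1) (y : E3) : proj u y = y - inner ℝ y u • u := by
  simp [proj, hu]

lemma eq_proj_add (u y : E3) : y = proj u y + (inner ℝ y u / ‖u‖ ^ 2) • u := by
  simp [proj]

lemma proj_of_perp {u y : E3} (h : inner ℝ y u = 0) : proj u y = y := by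
  simp [proj, h]

/-- `proj u` as a linear map -/
noncomputable def projL (u : E3) : E3 →ₗ[ℝ] E3 where
  toFun := proj u
  map_add' := proj_add u
  map_smul' := proj_smul u

lemma projL_apply (u y : E3) : projL u y = proj u y := rfl

lemma continuous_proj (u : E3) : Continuous (proj u) :=
  (projL u).continuous_of_finiteDimensional

theorem gram_proj {u : E3} (hu : u ≠ 0) (a b : E3) :
    gram (proj u a) (proj u b) = |det3 a b u| / ‖u‖ := by
  have hn : 0 < ‖u‖ := norm_pos_iff.mpr hu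
  have hn2 : ‖u‖ ^ 2 ≠ 0 := by positivity
  unfold gram
  rw [Real.sqrt_eq_iff_eq_sq _ (by positivity)]
  · rw [div_pow, sq_abs, eq_div_iff hn2]
    have e3 : ∀ a b : E3, inner ℝ (proj u a) (proj u b) =
        inner ℝ a b - inner ℝ a u * inner ℝ b u / ‖u‖ ^ 2 := by
      intro a b
      rw [proj, proj, inner_sub_left, inner_sub_right, inner_sub_right, real_inner_smul_left,
        real_inner_smul_right, real_inner_smul_left, real_inner_smul_right,
        real_inner_self_eq_norm_sq, real_inner_comm b u]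
      field_simp; ring
    have e1 : ∀ a : E3, ‖proj u a‖ ^ 2 = ‖a‖ ^ 2 - inner ℝ a u ^ 2 / ‖u‖ ^ 2 := by
      intro a
      rw [← real_inner_self_eq_norm_sq, e3, real_inner_self_eq_norm_sq]; ring
    rw [e1, e1, e3]
    field_simp
    simp only [normsq3, inner3, det3]
    ring
  · have := abs_real_inner_le_norm (proj u a) (proj u b)
    have h2 : inner ℝ (proj u a) (proj u b) ^ 2 ≤ (‖proj u a‖ * ‖proj u b‖) ^ 2 := by
      rw [← sq_abs]; exact pow_le_pow_left₀ (abs_nonneg _) this 2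
    nlinarith

theorem area_proj_triangle {u : E3} (hu : u ≠ 0) (p q r : E3) :
    μHE[2] (convexHull ℝ ({proj u p, proj u q, proj u r} : Set E3)) =
      ENNReal.ofReal (|det3 (q - p) (r - p) u| / ‖u‖ / 2) := by
  rw [area_triangle, ← proj_sub, ← proj_sub, gram_proj hu]

lemma proj_image_convexHull_triple (u p q r : E3) :
    proj u '' convexHull ℝ ({p, q, r} : Set E3) = convexHull ℝ {proj u p, proj u q, proj u r} := by
  have := (projL u).image_convexHull ({p, q, r} : Set E3)
  simp only [Set.image_insert_eq, Set.image_singleton, projL_apply] at this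
  exact this

/-- For `a, b, w` perpendicular to the unit vector `e`. -/
theorem abs_det3_perp {e a b w : E3} (he : ‖e‖ = 1) (ha : inner ℝ a e = 0) (hb : inner ℝ b e = 0)
    (hw : inner ℝ w e = 0) : |det3 a b (e + w)| = gram a b := by
  have he2 : e 0 ^ 2 + e 1 ^ 2 + e 2 ^ 2 = 1 := by rw [← normsq3, he]; norm_num
  rw [inner3] at ha hb hw
  have h0 : det3 a b w = 0 := by
    have k0 : det3 a b w * e 0 = 0 := by
      simp only [det3]
      linear_combination (b 1 * w 2 - b 2 * w 1) * ha + (w 1 * a 2 - w 2 * a 1) * hb +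
        (a 1 * b 2 - a 2 * b 1) * hw
    have k1 : det3 a b w * e 1 = 0 := by
      simp only [det3]
      linear_combination (b 2 * w 0 - b 0 * w 2) * ha + (w 2 * a 0 - w 0 * a 2) * hb +
        (a 2 * b 0 - a 0 * b 2) * hw
    have k2 : det3 a b w * e 2 = 0 := by
      simp only [det3]
      linear_combination (b 0 * w 1 - b 1 * w 0) * ha + (w 0 * a 1 - w 1 * a 0) * hb +
        (a 0 * b 1 - a 1 * b 0) * hw
    linear_combination (-det3 a b w) * he2 + e 0 * k0 + e 1 * k1 + e 2 * k2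
  have h1 : det3 a b (e + w) = det3 a b e := by
    have : det3 a b (e + w) = det3 a b e + det3 a b w := by simp [det3]; ring
    rw [this, h0, add_zero]
  have hne : e ≠ 0 := by rintro rfl; simp at he
  have h2 := gram_proj hne a b
  rw [proj_of_perp (by rw [inner3]; exact ha), proj_of_perp (by rw [inner3]; exact hb), he,
    div_one] at h2
  rw [h1, h2]

lemma norm_add_perp {e w : E3} (he : ‖e‖ = 1) (hw : inner ℝ w e = 0) :
    ‖e + w‖ = Real.sqrt (1 + ‖w‖ ^ 2) := by
  symm
  rw [Real.sqrt_eq_iff_eq_sq (by positivity) (norm_nonneg _), norm_add_sq_real, he,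
    real_inner_comm, hw]
  ring

/-- bounded subsets of a plane have finite area -/
theorem area_lt_top_of_perp {u : E3} (hu : u ≠ 0) {S : Set E3} (hS : Bornology.IsBounded S)
    (h : ∀ x ∈ S, inner ℝ x u = 0) : μHE[2] S < ∞ := by
  let W : Submodule ℝ E3 := (ℝ ∙ u)ᗮ
  have hW : Module.finrank ℝ W = 2 := by
    have h1 := (ℝ ∙ u).finrank_add_finrank_orthogonal
    rw [finrank_span_singleton hu] at h1
    simp only [finrank_euclideanSpace, Fintype.card_fin] at h1
    simp only [W]; omega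
  have hS' : S = Subtype.val '' ((Subtype.val : W → E3) ⁻¹' S) := by
    symm
    apply Set.image_preimage_eq_of_subset
    intro x hx
    refine ⟨⟨x, ?_⟩, rfl⟩
    rw [Submodule.mem_orthogonal_singleton_iff_inner_left]
    exact h x hx
  rw [hS', isometry_subtype_coe.euclideanHausdorffMeasure_image, ← hW,
    InnerProductSpace.euclideanHausdorffMeasure_eq_volume]
  apply Bornology.IsBounded.measure_lt_top
  exact isometry_subtype_coe.antilipschitz.isBounded_preimage hS

theorem area_proj_lt_top {u : E3} (hu : u ≠ 0) {S : Set E3} (hS : IsCompact S) :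
    μHE[2] (proj u '' S) < ∞ := by
  apply area_lt_top_of_perp hu (hS.image (continuous_proj u)).isBounded
  rintro _ ⟨y, -, rfl⟩
  exact inner_proj hu y

end Crest.Agent.R211
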