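import Mathlib

/-! Real-number core of the two-fan cover of the regular tetrahedron. -/

set_option autoImplicit false

namespace Crest.Agent.R211

/-- grid points of `[-1, 1]` -/
noncomputable def tg (i : ℕ) : ℝ := -1 + i / 500000

/-- midpoint of cell `i` -/
noncomputable def mid (i : ℕ) : ℝ := (tg i + tg (i + 1)) / 2

/-- transverse velocity of cell `i` (without the factor `1/100`) -/
noncomputable def pv (i : ℕ) : ℝ := (1 + tg i * tg (i + 1)) / 2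

/-- extra height of the cap -/
noncomputable def cap (m : ℝ) : ℝ := 255 / 10 ^ 7 * (m ^ 2 + m ^ 4) + 1 / 10 ^ 8

lemma tg_succ (i : ℕ) : tg (i + 1) = tg i + 1 / 500000 := by
  simp only [tg]; push_cast; ring

lemma tg_zero : tg 0 = -1 := by simp [tg]

lemma tg_last : tg 1000000 = 1 := by simp only [tg]; norm_num

lemma tg_ge (i : ℕ) : -1 ≤ tg i := by
  simp only [tg]; have : (0 : ℝ) ≤ i / 500000 := by positivity
  linarith

lemma tg_le {i : ℕ} (hi : i ≤ 1000000) : tg i ≤ 1 := by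
  simp only [tg]
  have : (i : ℝ) ≤ 1000000 := by exact_mod_cast hi
  linarith

lemma cap_pos (m : ℝ) : 0 < cap m := by unfold cap; positivity

lemma exists_sign_change (F : ℕ → ℝ) (h0 : 0 ≤ F 0) :
    ∀ N : ℕ, 0 < N → F N ≤ 0 → ∃ i < N, 0 ≤ F i ∧ F (i + 1) ≤ 0 := by
  intro N
  induction N with
  | zero => intro h; omega
  | succ n ih =>
    intro _ hN
    by_cases h : 0 ≤ F n
    · exact ⟨n, by omega, h, hN⟩
    · have hn : 0 < n := by
        rcases Nat.eq_zero_or_pos n with rfl | h'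
        · exact absurd h0 h
        · exact h'
      obtain ⟨i, hi, h1, h2⟩ := ih hn (le_of_lt (not_le.mp h))
      exact ⟨i, by omega, h1, h2⟩

/-- every point of the wedge `|y| ≤ Z` lies in one of the sliding sectors -/
lemma fan (x y Z : ℝ) (h : |y| ≤ Z) :
    ∃ i < 1000000, ∃ ρ f : ℝ, 0 ≤ f ∧ f ≤ ρ / 500000 ∧ Z = ρ + mid i / 100 * x ∧
      y = tg i * ρ + f + pv i / 100 * x := by
  have h1 := abs_le.mp h
  obtain ⟨i, hi, hi1, hi2⟩ := exists_sign_change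
    (fun i => y - tg i * Z - (1 - tg i ^ 2) / 200 * x)
    (by simp only [tg_zero]; linarith) 1000000 (by norm_num) (by simp only [tg_last]; linarith)
  refine ⟨i, hi, Z - mid i / 100 * x, y - tg i * Z - (1 - tg i ^ 2) / 200 * x, hi1, ?_, by ring, ?_⟩
  · simp only [mid, tg_succ] at hi2 ⊢
    nlinarith
  · simp only [mid, pv, tg_succ]; ring

lemma interface (x y a b m n τ σ P Q : ℝ) (hm : |m| ≤ 1) (hn : |n| ≤ 1) (hτ : |τ| ≤ 1)
    (hσ : |σ| ≤ 1) (hτm : |τ - m| ≤ 1 / 10 ^ 6) (hσn : |σ - n| ≤ 1 / 10 ^ 6)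
    (hP0 : 0 ≤ P) (hP : P ≤ (1 + m ^ 2) / 2) (hQ0 : 0 ≤ Q) (hQ : Q ≤ (1 + n ^ 2) / 2)
    (e1 : a + b = (n * y - m * x) / 100) (e2 : y = τ * (1 / 2 + a) + P / 100 * x)
    (e3 : x = σ * (1 / 2 + b) - Q / 100 * y) (ha : cap m < a) (hb : cap n < b) : False := by
  have key : a * (1 + P * Q / 10000 - n * τ / 100 - m * Q * τ / 10000) +
      b * (1 + P * Q / 10000 + m * σ / 100 - n * P * σ / 10000) =
      (n * τ - m * σ) / 200 + (n * σ * P + m * τ * Q) / 20000 := by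
    linear_combination (1 + P * Q / 10000) * e1 + (n / 100 + m * Q / 10000) * e2 +
      (n * P / 10000 - m / 100) * e3
  have hm2 : m ^ 2 ≤ 1 := by rw [← sq_abs]; nlinarith [abs_nonneg m]
  have hn2 : n ^ 2 ≤ 1 := by rw [← sq_abs]; nlinarith [abs_nonneg n]
  have hP1 : P ≤ 1 := by linarith
  have hQ1 : Q ≤ 1 := by linarith
  have prod_le : ∀ s t : ℝ, |s| ≤ 1 → |t| ≤ 1 → |s * t| ≤ 1 := by
    intro s t hs ht
    rw [abs_mul]; nlinarith [abs_nonneg s, abs_nonneg t]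
  have hPQ : 0 ≤ P * Q := mul_nonneg hP0 hQ0
  have c1 : 9899 / 10000 ≤ 1 + P * Q / 10000 - n * τ / 100 - m * Q * τ / 10000 := by
    have t1 := (abs_le.mp (prod_le n τ hn hτ)).2
    have t2 := (abs_le.mp (prod_le _ τ (prod_le m Q hm (by rw [abs_of_nonneg hQ0]; exact hQ1)) hτ)).2
    linarith
  have c2 : 9899 / 10000 ≤ 1 + P * Q / 10000 + m * σ / 100 - n * P * σ / 10000 := by
    have t1 := (abs_le.mp (prod_le m σ hm hσ)).1
    have t2 := (abs_le.mp (prod_le _ σ (prod_le n P hn (by rw [abs_of_nonneg hP0]; exact hP1)) hσ)).2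
    linarith
  have small : ∀ s t : ℝ, |s| ≤ 1 → |t| ≤ 1 / 10 ^ 6 → |s * t| ≤ 1 / 10 ^ 6 := by
    intro s t hs ht
    rw [abs_mul]; nlinarith [abs_nonneg s, abs_nonneg t]
  have s1 := abs_le.mp (small n _ hn hτm)
  have s2 := abs_le.mp (small m _ hm hσn)
  have s3 := abs_le.mp (small n _ hn hσn)
  have s4 := abs_le.mp (small m _ hm hτm)
  have r1 : n * τ - m * σ ≤ 2 / 10 ^ 6 := by linarith [s1.2, s2.1]
  have r2 : n * σ * P ≤ n ^ 2 * ((1 + m ^ 2) / 2) + 1 / 10 ^ 6 := by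
    have : n * σ ≤ n ^ 2 + 1 / 10 ^ 6 := by linarith [s3.2]
    have h2 : n * σ * P ≤ (n ^ 2 + 1 / 10 ^ 6) * P := mul_le_mul_of_nonneg_right this hP0
    have h3 : n ^ 2 * P ≤ n ^ 2 * ((1 + m ^ 2) / 2) := mul_le_mul_of_nonneg_left hP (sq_nonneg n)
    linarith
  have r3 : m * τ * Q ≤ m ^ 2 * ((1 + n ^ 2) / 2) + 1 / 10 ^ 6 := by
    have : m * τ ≤ m ^ 2 + 1 / 10 ^ 6 := by linarith [s4.2]
    have h2 : m * τ * Q ≤ (m ^ 2 + 1 / 10 ^ 6) * Q := mul_le_mul_of_nonneg_right this hQ0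
    have h3 : m ^ 2 * Q ≤ m ^ 2 * ((1 + n ^ 2) / 2) := mul_le_mul_of_nonneg_left hQ (sq_nonneg m)
    linarith
  have ha0 := cap_pos m
  have hb0 := cap_pos n
  have l1 : cap m * (9899 / 10000) ≤
      a * (1 + P * Q / 10000 - n * τ / 100 - m * Q * τ / 10000) :=
    mul_le_mul ha.le c1 (by norm_num) (by linarith)
  have l2 : cap n * (9899 / 10000) ≤
      b * (1 + P * Q / 10000 + m * σ / 100 - n * P * σ / 10000) :=
    mul_le_mul hb.le c2 (by norm_num) (by linarith)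
  have am : 2 * (m ^ 2 * n ^ 2) ≤ m ^ 4 + n ^ 4 := by nlinarith [sq_nonneg (m ^ 2 - n ^ 2)]
  unfold cap at l1 l2
  have m4 : 0 ≤ m ^ 4 := by positivity
  have n4 : 0 ≤ n ^ 4 := by positivity
  linarith [sq_nonneg m, sq_nonneg n]

lemma mid_sub (i : ℕ) : mid i = tg i + 1 / 10 ^ 6 := by
  simp only [mid, tg_succ]; ring

lemma abs_mid_le {i : ℕ} (hi : i < 1000000) : |mid i| ≤ 1 := by
  have h1 := tg_ge i
  have h2 := tg_le (i := i + 1) hi
  rw [tg_succ] at h2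
  rw [mid_sub, abs_le]; constructor <;> linarith

lemma pv_eq (i : ℕ) : pv i = (1 + mid i ^ 2 - 1 / 10 ^ 12) / 2 := by
  simp only [pv, mid_sub, tg_succ]; ring

/-- Every point of the tetrahedron lies below the cap of its lower sector or above the cap of its
upper sector. -/
theorem two_fans (x y Z : ℝ) (h1 : |y| ≤ Z) (h2 : |x| ≤ 1 - Z) :
    (∃ i < 1000000, ∃ s t : ℝ, 0 ≤ s ∧ 0 ≤ t ∧ s + t ≤ 1 ∧
      Z = (s + t) * (1 / 2 + cap (mid i)) + mid i / 100 * x ∧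
      y = (s * tg i + t * tg (i + 1)) * (1 / 2 + cap (mid i)) + pv i / 100 * x) ∨
    (∃ i < 1000000, ∃ s t : ℝ, 0 ≤ s ∧ 0 ≤ t ∧ s + t ≤ 1 ∧
      1 - Z = (s + t) * (1 / 2 + cap (mid i)) - mid i / 100 * y ∧
      x = (s * tg i + t * tg (i + 1)) * (1 / 2 + cap (mid i)) - pv i / 100 * y) := by
  obtain ⟨i, hi, ρ, f, hf0, hf1, e1, e2⟩ := fan x y Z h1
  obtain ⟨j, hj, ρ', f', hf0', hf1', e1', e2'⟩ := fan (-y) x (1 - Z) h2
  have hRi : 0 < 1 / 2 + cap (mid i) := by have := cap_pos (mid i); linarith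
  have hRj : 0 < 1 / 2 + cap (mid j) := by have := cap_pos (mid j); linarith
  have gen : ∀ R ρ f l : ℝ, 0 < R → 0 ≤ f → f ≤ ρ / 500000 → ρ ≤ R →
      ∃ s t : ℝ, 0 ≤ s ∧ 0 ≤ t ∧ s + t ≤ 1 ∧ ρ = (s + t) * R ∧
        l * ρ + f = (s * l + t * (l + 1 / 500000)) * R := by
    intro R ρ f l hR h0 h1 h2
    refine ⟨(ρ - 500000 * f) / R, 500000 * f / R, div_nonneg (by linarith) hR.le, by positivity,
      ?_, ?_, ?_⟩
    · rw [← add_div, div_le_one hR]; linarith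
    · field_simp; ring
    · field_simp; ring
  by_cases c1 : ρ ≤ 1 / 2 + cap (mid i)
  · left
    obtain ⟨s, t, hs, ht, hst, k1, k2⟩ := gen _ ρ f (tg i) hRi hf0 hf1 c1
    refine ⟨i, hi, s, t, hs, ht, hst, ?_, ?_⟩
    · rw [← k1, e1]
    · rw [tg_succ, ← k2, e2]
  by_cases c2 : ρ' ≤ 1 / 2 + cap (mid j)
  · right
    obtain ⟨s, t, hs, ht, hst, k1, k2⟩ := gen _ ρ' f' (tg j) hRj hf0' hf1' c2
    refine ⟨j, hj, s, t, hs, ht, hst, ?_, ?_⟩
    · rw [← k1, e1']; ring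
    · rw [tg_succ, ← k2, e2']; ring
  exfalso
  push Not at c1 c2
  have hρ : 0 < ρ := by linarith
  have hρ' : 0 < ρ' := by linarith
  have q1 : 0 ≤ f / ρ := div_nonneg hf0 hρ.le
  have q2 : f / ρ ≤ 1 / 500000 := by rw [div_le_iff₀ hρ]; linarith
  have q1' : 0 ≤ f' / ρ' := div_nonneg hf0' hρ'.le
  have q2' : f' / ρ' ≤ 1 / 500000 := by rw [div_le_iff₀ hρ']; linarith
  have gi1 := tg_ge i
  have gi2 := tg_le (i := i + 1) hi
  have gj1 := tg_ge j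
  have gj2 := tg_le (i := j + 1) hj
  rw [tg_succ] at gi2 gj2
  refine interface x y (ρ - 1 / 2) (ρ' - 1 / 2) (mid i) (mid j) (tg i + f / ρ) (tg j + f' / ρ')
    (pv i) (pv j) (abs_mid_le hi) (abs_mid_le hj) ?_ ?_ ?_ ?_ ?_ ?_ ?_ ?_ ?_ ?_ ?_
    (by linarith) (by linarith)
  · rw [abs_le]; constructor <;> linarith
  · rw [abs_le]; constructor <;> linarith
  · rw [mid_sub, abs_le]; constructor <;> linarith
  · rw [mid_sub, abs_le]; constructor <;> linarith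
  · rw [pv_eq]; nlinarith [sq_nonneg (mid i)]
  · rw [pv_eq]; linarith
  · rw [pv_eq]; nlinarith [sq_nonneg (mid j)]
  · rw [pv_eq]; linarith
  · linarith
  · rw [e2]; field_simp; ring
  · have : x = tg j * ρ' + f' - pv j / 100 * y := by rw [e2']; ring
    rw [this]; field_simp; ring

/-- telescoping potential -/
noncomputable def pot (t : ℝ) : ℝ :=
  t / 8 + (224 / 10000 * t ^ 5 - 28 / 3000 * t ^ 3 - 154 / 10000 * t) / 10000

lemma inv_sqrt_le {v : ℝ} (h0 : 0 ≤ v) (h1 : v ≤ 3 / 10000) :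
    1 / Real.sqrt (1 + v) ≤ 1 - 499 / 1000 * v := by
  have hp : 0 < 1 - 499 / 1000 * v := by linarith
  have hs : 0 < Real.sqrt (1 + v) := Real.sqrt_pos.mpr (by linarith)
  rw [div_le_iff₀ hs]
  have : 1 / (1 - 499 / 1000 * v) ≤ Real.sqrt (1 + v) := by
    apply Real.le_sqrt_of_sq_le
    rw [div_pow, div_le_iff₀ (by positivity)]
    nlinarith [mul_nonneg h0 h0, mul_nonneg h0 (mul_nonneg h0 h0)]
  rw [div_le_iff₀ hp] at this
  linarith

theorem term_le {i : ℕ} (hi : i < 1000000) :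
    (1 / 2 + cap (mid i)) ^ 2 * (1 / 500000) /
        Real.sqrt (1 + ((pv i / 100) ^ 2 + 2 * (mid i / 100) ^ 2)) / 2 ≤
      pot (tg (i + 1)) - pot (tg i) := by
  have hm := abs_mid_le hi
  have e1 : tg i = mid i - 1 / 10 ^ 6 := by rw [mid_sub]; ring
  have e2 : tg (i + 1) = mid i + 1 / 10 ^ 6 := by rw [tg_succ, mid_sub]; ring
  rw [e1, e2, pv_eq]
  set m := mid i
  have hm2 : m ^ 2 ≤ 1 := by rw [← sq_abs]; nlinarith [abs_nonneg m]
  have hm0 : 0 ≤ m ^ 2 := sq_nonneg m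
  have hm4 : m ^ 4 ≤ 1 := by nlinarith
  have hm40 : 0 ≤ m ^ 4 := by positivity
  set v := ((1 + m ^ 2 - 1 / 10 ^ 12) / 2 / 100) ^ 2 + 2 * (m / 100) ^ 2 with hv
  have hv0 : 0 ≤ v := by positivity
  have hv1 : v ≤ 3 / 10000 := by rw [hv]; nlinarith
  have hvl : ((1 + 2 * m ^ 2 + m ^ 4) / 4 - 1 / 10 ^ 12 + 2 * m ^ 2) / 10000 ≤ v := by
    rw [hv]; nlinarith
  have h1 := inv_sqrt_le hv0 hv1
  have hc0 := cap_pos m
  have hc1 : cap m ≤ 52 / 10 ^ 6 := by unfold cap; linarith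
  have h2 : (1 / 2 + cap m) ^ 2 / 2 ≤ 1 / 8 + cap m / 2 + 2 / 10 ^ 9 := by nlinarith
  have h3 : (1 / 2 + cap m) ^ 2 / 2 * (1 / Real.sqrt (1 + v)) ≤
      (1 / 8 + cap m / 2 + 2 / 10 ^ 9) * (1 - 499 / 1000 * v) :=
    mul_le_mul h2 h1 (by positivity) (by linarith)
  have h4 : (1 / 8 + cap m / 2 + 2 / 10 ^ 9) * (1 - 499 / 1000 * v) ≤
      1 / 8 + cap m / 2 + 2 / 10 ^ 9 - 499 / 8000 * v := by nlinarith
  have h5 : 1 / 8 + cap m / 2 + 2 / 10 ^ 9 - 499 / 8000 * v ≤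
      1 / 8 + (112 / 1000 * m ^ 4 - 28 / 1000 * m ^ 2 - 155 / 10000) / 10000 := by
    unfold cap; linarith
  have h6 : (1 / 500000) * (1 / 8 + (112 / 1000 * m ^ 4 - 28 / 1000 * m ^ 2 - 155 / 10000) / 10000) ≤
      pot (m + 1 / 10 ^ 6) - pot (m - 1 / 10 ^ 6) := by
    unfold pot; nlinarith
  calc (1 / 2 + cap m) ^ 2 * (1 / 500000) / Real.sqrt (1 + v) / 2
      = (1 / 500000) * ((1 / 2 + cap m) ^ 2 / 2 * (1 / Real.sqrt (1 + v))) := by ring
    _ ≤ (1 / 500000) * (1 / 8 + (112 / 1000 * m ^ 4 - 28 / 1000 * m ^ 2 - 155 / 10000) / 10000) := by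
        apply mul_le_mul_of_nonneg_left _ (by norm_num); linarith
    _ ≤ _ := h6

theorem sum_terms_le :
    ∑ i : Fin 1000000, (1 / 2 + cap (mid i)) ^ 2 * (1 / 500000) /
        Real.sqrt (1 + ((pv i / 100) ^ 2 + 2 * (mid i / 100) ^ 2)) / 2 ≤ 1 / 4 - 1 / 10 ^ 7 := by
  calc _ ≤ ∑ i : Fin 1000000, (pot (tg (i + 1)) - pot (tg i)) :=
        Finset.sum_le_sum fun i _ => term_le i.2
    _ = ∑ i ∈ Finset.range 1000000, (pot (tg (i + 1)) - pot (tg i)) :=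
        Fin.sum_univ_eq_sum_range (fun i => pot (tg (i + 1)) - pot (tg i)) 1000000
    _ = pot (tg 1000000) - pot (tg 0) := Finset.sum_range_sub (fun i => pot (tg i)) 1000000
    _ ≤ _ := by rw [tg_last, tg_zero]; unfold pot; norm_num

end Crest.Agent.R211
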