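import Crest.Agent.R211.Perp

/-! Parallelogram covers, similarity transfer and relatively open bases. -/

set_option autoImplicit false
open MeasureTheory
open scoped ENNReal

namespace Crest.Agent.R211

/-- A cover by cylinders over oblique parallelograms with total perpendicular area at most `A`. -/
def ParaCov (K : Set E3) (A : ℝ) : Prop :=
  ∃ (k : ℕ) (c a b u : Fin k → E3), (∀ i, u i ≠ 0) ∧
    (∀ x ∈ K, ∃ i, ∃ s ∈ Set.Icc (0 : ℝ) 1, ∃ t ∈ Set.Icc (0 : ℝ) 1, ∃ τ : ℝ,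
      x = c i + s • a i + t • b i + τ • u i) ∧
    ∑ i, gram (proj (u i) (a i)) (proj (u i) (b i)) ≤ A

theorem ParaCov.of_fintype {K : Set E3} {A : ℝ} {ι : Type} [Fintype ι] (c a b u : ι → E3)
    (hu : ∀ i, u i ≠ 0)
    (hc : ∀ x ∈ K, ∃ i, ∃ s ∈ Set.Icc (0 : ℝ) 1, ∃ t ∈ Set.Icc (0 : ℝ) 1, ∃ τ : ℝ,
      x = c i + s • a i + t • b i + τ • u i)
    (hs : ∑ i, gram (proj (u i) (a i)) (proj (u i) (b i)) ≤ A) : ParaCov K A := by
  let e := (Fintype.equivFin ι).symm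
  refine ⟨Fintype.card ι, c ∘ e, a ∘ e, b ∘ e, u ∘ e, fun i => hu _, ?_, ?_⟩
  · intro x hx
    obtain ⟨i, h⟩ := hc x hx
    refine ⟨e.symm i, ?_⟩
    simpa using h
  · have := e.sum_comp (fun i => gram (proj (u i) (a i)) (proj (u i) (b i)))
    simp only [Function.comp]
    rw [this]; exact hs

lemma det3_smul (s t : ℝ) (a b u : E3) : det3 (s • a) (t • b) u = s * t * det3 a b u := by
  simp only [det3, PiLp.smul_apply, smul_eq_mul]; ring

lemma gram_proj_smul {u : E3} (hu : u ≠ 0) {s t : ℝ} (hs : 0 ≤ s) (ht : 0 ≤ t) (a b : E3) :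
    gram (proj u (s • a)) (proj u (t • b)) = s * t * gram (proj u a) (proj u b) := by
  rw [gram_proj hu, gram_proj hu, det3_smul, abs_mul, abs_of_nonneg (mul_nonneg hs ht)]; ring

lemma sum_strips (m : ℕ) (hm : 0 < m) :
    ∑ j : Fin m, (1 - (j : ℝ) / m) * (1 / m) = (1 + 1 / m) / 2 := by
  have hm' : (m : ℝ) ≠ 0 := by positivity
  have h1 : ∀ n : ℕ, ∑ j ∈ Finset.range n, (j : ℝ) = n * (n - 1) / 2 := by
    intro n
    induction n with
    | zero => simp
    | succ n ih => rw [Finset.sum_range_succ, ih]; push_cast; ring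
  rw [Fin.sum_univ_eq_sum_range (fun j : ℕ => (1 - (j : ℝ) / m) * (1 / m)) m, ← Finset.sum_mul,
    Finset.sum_sub_distrib, ← Finset.sum_div, h1]
  simp only [Finset.sum_const, Finset.card_range, nsmul_eq_mul, mul_one]
  field_simp; ring

theorem TriCov.toPara {K : Set E3} {n : ℕ} {A : ℝ} (h : TriCov K n A) (m : ℕ) (hm : 0 < m) :
    ParaCov K ((1 + 1 / m) * A) := by
  obtain ⟨c, a, b, u, hu, hc, hs⟩ := h
  have hm' : (0 : ℝ) < m := by positivity
  have hj : ∀ j : Fin m, 0 < 1 - (j : ℝ) / m := by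
    intro j
    have : ((j : ℕ) : ℝ) < m := by exact_mod_cast j.2
    rw [sub_pos, div_lt_one hm']; exact this
  refine ParaCov.of_fintype (ι := Fin n × Fin m)
    (fun p => c p.1 + ((p.2 : ℝ) / m) • b p.1) (fun p => (1 - (p.2 : ℝ) / m) • a p.1)
    (fun p => (1 / m : ℝ) • b p.1) (fun p => u p.1) (fun p => hu _) ?_ ?_
  · intro x hx
    obtain ⟨i, s, t, τ, hs0, ht0, hst, rfl⟩ := hc x hx
    obtain ⟨j, hj1, hj2⟩ : ∃ j : Fin m, (j : ℝ) ≤ t * m ∧ t * m ≤ j + 1 := by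
      by_cases h1 : ⌊t * m⌋₊ < m
      · exact ⟨⟨_, h1⟩, Nat.floor_le (by positivity), (Nat.lt_floor_add_one _).le⟩
      · refine ⟨⟨m - 1, by omega⟩, ?_, ?_⟩
        · have : m ≤ ⌊t * m⌋₊ := by omega
          have h2 : (m : ℝ) ≤ t * m := (Nat.le_floor_iff (by positivity)).mp this
          have h3 : ((m - 1 : ℕ) : ℝ) ≤ m := by exact_mod_cast Nat.sub_le m 1
          exact h3.trans h2
        · have h3 : ((m - 1 : ℕ) : ℝ) + 1 = m := by
            rw [Nat.cast_sub hm]; simp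
          simp only
          rw [h3]; nlinarith
    have hj' := hj j
    have hjt : (j : ℝ) / m ≤ t := by rw [div_le_iff₀ hm']; exact hj1
    refine ⟨(i, j), s / (1 - (j : ℝ) / m), ⟨by positivity, ?_⟩, t * m - j,
      ⟨by linarith, by linarith⟩, τ, ?_⟩
    · rw [div_le_one hj']; linarith
    · simp only [smul_smul]
      rw [div_mul_cancel₀ _ hj'.ne']
      have : t = (j : ℝ) / m + (t * m - j) * (1 / m) := by field_simp; ring
      conv_lhs => rw [this]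
      module
  · rw [Fintype.sum_prod_type]
    have : ∀ i : Fin n, ∑ j : Fin m, gram (proj (u i) ((1 - (j : ℝ) / m) • a i))
        (proj (u i) ((1 / m : ℝ) • b i)) =
        (1 + 1 / m) * (gram (proj (u i) (a i)) (proj (u i) (b i)) / 2) := by
      intro i
      simp only [gram_proj_smul (hu i) (hj _).le (by positivity : (0 : ℝ) ≤ 1 / m)]
      rw [← Finset.sum_mul, sum_strips m hm]; ring
    simp only [this]
    rw [← Finset.mul_sum]
    exact mul_le_mul_of_nonneg_left hs (by positivity)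

lemma proj_map (T : E3 ≃ₗᵢ[ℝ] E3) (u a : E3) : proj (T u) (T a) = T (proj u a) := by
  simp [proj]

lemma gram_map (T : E3 ≃ₗᵢ[ℝ] E3) (a b : E3) : gram (T a) (T b) = gram a b := by
  simp [gram]

theorem ParaCov.map {K : Set E3} {A : ℝ} (h : ParaCov K A) (T : E3 ≃ₗᵢ[ℝ] E3) (M : E3) {s : ℝ}
    (hs : 0 ≤ s) : ParaCov ((fun x => M + s • T x) '' K) (s ^ 2 * A) := by
  obtain ⟨k, c, a, b, u, hu, hc, hA⟩ := h
  have hu' : ∀ i, T (u i) ≠ 0 := fun i h => hu i (by simpa using h)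
  refine ⟨k, fun i => M + s • T (c i), fun i => s • T (a i), fun i => s • T (b i),
    fun i => T (u i), hu', ?_, ?_⟩
  · rintro _ ⟨x, hx, rfl⟩
    obtain ⟨i, σ, hσ, t, ht, τ, rfl⟩ := hc x hx
    refine ⟨i, σ, hσ, t, ht, s * τ, ?_⟩
    simp only [map_add, map_smul]
    module
  · simp only [gram_proj_smul (hu' _) hs hs, proj_map, gram_map]
    rw [← Finset.mul_sum, ← sq]
    exact mul_le_mul_of_nonneg_left hA (sq_nonneg s)

theorem area_proj_map (K : Set E3) (T : E3 ≃ₗᵢ[ℝ] E3) (M : E3) {s : ℝ} (hs : 0 < s) (v : E3) :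
    μHE[2] (proj (T v) '' ((fun x => M + s • T x) '' K)) =
      ENNReal.ofReal (s ^ 2) * μHE[2] (proj v '' K) := by
  have h1 : proj (T v) '' ((fun x => M + s • T x) '' K) =
      (fun y => proj (T v) M + y) '' ((fun y => s • y) '' (T '' (proj v '' K))) := by
    simp only [Set.image_image, proj_add, proj_smul, proj_map]
  rw [h1, (isometry_add_left _).euclideanHausdorffMeasure_image]
  have h2 := Measure.euclideanHausdorffMeasure_smul₀ (E := E3) 2 hs.ne' (T '' (proj v '' K))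
  rw [← Set.image_smul] at h2
  rw [h2, T.isometry.euclideanHausdorffMeasure_image, ENNReal.smul_def, smul_eq_mul]
  congr 1
  rw [ENNReal.ofReal, ENNReal.coe_inj]
  ext
  simp [Real.coe_toNNReal _ (sq_nonneg s)]

/-- perpendicular parallelogram bases -/
theorem ParaCov.perp {K : Set E3} {A : ℝ} (h : ParaCov K A) :
    ∃ (k : ℕ) (u c a b : Fin k → E3), (∀ i, ‖u i‖ = 1) ∧
      (∀ i, inner ℝ (c i) (u i) = 0 ∧ inner ℝ (a i) (u i) = 0 ∧ inner ℝ (b i) (u i) = 0) ∧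
      (K ⊆ ⋃ i, {x : E3 | ∃ s ∈ Set.Icc (0 : ℝ) 1, ∃ t ∈ Set.Icc (0 : ℝ) 1, ∃ τ : ℝ,
        x = c i + s • a i + t • b i + τ • u i}) ∧
      ∑ i, (μHE[2] {x : E3 | ∃ s ∈ Set.Icc (0 : ℝ) 1, ∃ t ∈ Set.Icc (0 : ℝ) 1,
        x = c i + s • a i + t • b i}).toReal ≤ A := by
  obtain ⟨k, c, a, b, u, hu, hc, hA⟩ := h
  refine ⟨k, fun i => ‖u i‖⁻¹ • u i, fun i => proj (u i) (c i), fun i => proj (u i) (a i),
    fun i => proj (u i) (b i), fun i => norm_unit (hu i),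
    fun i => ⟨inner_proj_unit (hu i) _, inner_proj_unit (hu i) _, inner_proj_unit (hu i) _⟩,
    ?_, ?_⟩
  · intro x hx
    obtain ⟨i, s, hs, t, ht, τ, rfl⟩ := hc x hx
    obtain ⟨τ', h⟩ := decomp_unit (hu i) (c i) (a i) (b i) s t τ
    exact Set.mem_iUnion.mpr ⟨i, s, hs, t, ht, τ', h⟩
  · simp only [area_para, ENNReal.toReal_ofReal (gram_nonneg _ _)]
    exact hA

/-- outer regularity inside a plane -/
theorem exists_open_base {u : E3} (hu : u ≠ 0) {S : Set E3} (hS : Bornology.IsBounded S)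
    (h : ∀ x ∈ S, inner ℝ x u = 0) {ε : ℝ} (hε : 0 < ε) :
    ∃ B : Set E3, Bornology.IsBounded B ∧ (∃ O : Set E3, IsOpen O ∧ B = O ∩ {x | inner ℝ x u = 0}) ∧
      S ⊆ B ∧ (μHE[2] B).toReal ≤ (μHE[2] S).toReal + ε := by
  let W : Submodule ℝ E3 := (ℝ ∙ u)ᗮ
  have hW : Module.finrank ℝ W = 2 := by
    have h1 := (ℝ ∙ u).finrank_add_finrank_orthogonal
    rw [finrank_span_singleton hu] at h1
    simp only [finrank_euclideanSpace, Fintype.card_fin] at h1
    simp only [W]; omega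
  have memW : ∀ x : E3, x ∈ W ↔ inner ℝ x u = 0 := fun x =>
    Submodule.mem_orthogonal_singleton_iff_inner_left
  have key : ∀ Z : Set W, μHE[2] (Subtype.val '' Z : Set E3) = volume Z := by
    intro Z
    rw [isometry_subtype_coe.euclideanHausdorffMeasure_image, ← hW,
      InnerProductSpace.euclideanHausdorffMeasure_eq_volume]
  have hS' : S = Subtype.val '' ((Subtype.val : W → E3) ⁻¹' S) := by
    symm
    apply Set.image_preimage_eq_of_subset
    intro x hx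
    exact ⟨⟨x, (memW x).mpr (h x hx)⟩, rfl⟩
  have hfin := area_lt_top_of_perp hu hS h
  obtain ⟨O', hO1, hO2, hO3⟩ := Set.exists_isOpen_le_add ((Subtype.val : W → E3) ⁻¹' S) volume
    (ε := ENNReal.ofReal ε) (by simpa using hε)
  obtain ⟨O, hO, rfl⟩ := isOpen_induced_iff.mp hO2
  obtain ⟨r, hr⟩ := hS.subset_ball (0 : E3)
  refine ⟨(O ∩ Metric.ball 0 r) ∩ {x | inner ℝ x u = 0}, ?_, ⟨_, hO.inter Metric.isOpen_ball, rfl⟩,
    ?_, ?_⟩
  · exact Metric.isBounded_ball.subset fun x hx => hx.1.2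
  · intro x hx
    exact ⟨⟨hO1 (show (⟨x, (memW x).mpr (h x hx)⟩ : W) ∈ Subtype.val ⁻¹' S from hx), hr hx⟩, h x hx⟩
  · have h1 : μHE[2] ((O ∩ Metric.ball 0 r) ∩ {x | inner ℝ x u = 0} : Set E3) ≤
        μHE[2] S + ENNReal.ofReal ε := by
      calc μHE[2] ((O ∩ Metric.ball 0 r) ∩ {x | inner ℝ x u = 0} : Set E3)
          ≤ μHE[2] (Subtype.val '' ((Subtype.val : W → E3) ⁻¹' O)) := by
            apply measure_mono
            intro x hx
            exact ⟨⟨x, (memW x).mpr hx.2⟩, hx.1.1, rfl⟩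
        _ = volume ((Subtype.val : W → E3) ⁻¹' O) := key _
        _ ≤ volume ((Subtype.val : W → E3) ⁻¹' S) + ENNReal.ofReal ε := hO3
        _ = _ := by rw [← key, ← hS']
    calc _ ≤ (μHE[2] S + ENNReal.ofReal ε).toReal :=
          ENNReal.toReal_mono (ENNReal.add_ne_top.mpr ⟨hfin.ne, ENNReal.ofReal_ne_top⟩) h1
      _ = _ := by rw [ENNReal.toReal_add hfin.ne ENNReal.ofReal_ne_top, ENNReal.toReal_ofReal hε.le]

lemma isCompact_para (c a b : E3) : IsCompact {x : E3 | ∃ s ∈ Set.Icc (0 : ℝ) 1,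
    ∃ t ∈ Set.Icc (0 : ℝ) 1, x = c + s • a + t • b} := by
  have : {x : E3 | ∃ s ∈ Set.Icc (0 : ℝ) 1, ∃ t ∈ Set.Icc (0 : ℝ) 1, x = c + s • a + t • b} =
      (fun z : ℝ × ℝ => c + z.1 • a + z.2 • b) '' (Set.Icc (0 : ℝ) 1 ×ˢ Set.Icc (0 : ℝ) 1) := by
    ext x
    constructor
    · rintro ⟨s, hs, t, ht, rfl⟩; exact ⟨(s, t), ⟨hs, ht⟩, rfl⟩
    · rintro ⟨z, ⟨hs, ht⟩, rfl⟩; exact ⟨z.1, hs, z.2, ht, rfl⟩
  rw [this]
  exact (isCompact_Icc.prod isCompact_Icc).image (by fun_prop)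

/-- bounded relatively open perpendicular bases -/
theorem ParaCov.openBase {K : Set E3} {A : ℝ} (h : ParaCov K A) {ε : ℝ} (hε : 0 < ε) :
    ∃ (k : ℕ) (u : Fin k → E3) (B : Fin k → Set E3), (∀ i, ‖u i‖ = 1) ∧
      (∀ i, Bornology.IsBounded (B i) ∧ ∃ O : Set E3, IsOpen O ∧
        B i = O ∩ {x | inner ℝ x (u i) = 0}) ∧
      (K ⊆ ⋃ i, {x : E3 | ∃ y ∈ B i, ∃ τ : ℝ, x = y + τ • u i}) ∧
      ∑ i, (μHE[2] (B i)).toReal ≤ A + ε := by
  obtain ⟨k, u, c, a, b, hu, hp, hc, hA⟩ := h.perp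
  have hu0 : ∀ i, u i ≠ 0 := fun i h => by simpa [h] using hu i
  have hε' : 0 < ε / (k + 1) := by positivity
  have := fun i => exists_open_base (hu0 i) (isCompact_para (c i) (a i) (b i)).isBounded
    (by
      rintro _ ⟨s, -, t, -, rfl⟩
      simp only [inner_add_left, real_inner_smul_left, (hp i).1, (hp i).2.1, (hp i).2.2]
      ring) hε'
  choose B hB1 hB2 hB3 hB4 using this
  refine ⟨k, u, B, hu, fun i => ⟨hB1 i, hB2 i⟩, ?_, ?_⟩
  · intro x hx
    obtain ⟨i, s, hs, t, ht, τ, rfl⟩ := Set.mem_iUnion.mp (hc hx)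
    exact Set.mem_iUnion.mpr ⟨i, _, hB3 i ⟨s, hs, t, ht, rfl⟩, τ, rfl⟩
  · refine (Finset.sum_le_sum fun i _ => hB4 i).trans ?_
    rw [Finset.sum_add_distrib]
    simp only [Finset.sum_const, Finset.card_univ, Fintype.card_fin, nsmul_eq_mul]
    have : (k : ℝ) * (ε / (k + 1)) ≤ ε := by
      rw [← mul_div_assoc, div_le_iff₀ (by positivity)]; nlinarith
    linarith

/-- every regular tetrahedron is similar to the standard one -/
theorem regular_similar (w : Fin 4 → E3) (ℓ : ℝ) (hℓ : 0 < ℓ)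
    (hw : ∀ i j, i ≠ j → dist (w i) (w j) = ℓ) :
    ∃ (T : E3 ≃ₗᵢ[ℝ] E3) (M : E3),
      convexHull ℝ (Set.range w) = (fun x => M + (ℓ / 2) • T x) '' K0 := by
  have hs := sqrt2_pos
  have hs2 := sqrt2_sq
  obtain ⟨P, hP⟩ : ∃ P, P = w 1 - w 0 := ⟨_, rfl⟩
  obtain ⟨Q, hQ⟩ : ∃ Q, Q = w 2 - w 0 := ⟨_, rfl⟩
  obtain ⟨R, hR⟩ : ∃ R, R = w 3 - w 0 := ⟨_, rfl⟩
  have d : ∀ i j, i ≠ j → inner ℝ (w i - w j) (w i - w j) = ℓ ^ 2 := by
    intro i j h
    rw [real_inner_self_eq_norm_sq, ← dist_eq_norm, hw i j h]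
  have PP : inner ℝ P P = ℓ ^ 2 := by rw [hP]; exact d _ _ (by decide)
  have QQ : inner ℝ Q Q = ℓ ^ 2 := by rw [hQ]; exact d _ _ (by decide)
  have RR : inner ℝ R R = ℓ ^ 2 := by rw [hR]; exact d _ _ (by decide)
  have half : ∀ X Y : E3, inner ℝ X X = ℓ ^ 2 → inner ℝ Y Y = ℓ ^ 2 →
      inner ℝ (X - Y) (X - Y) = ℓ ^ 2 → inner ℝ X Y = ℓ ^ 2 / 2 := by
    intro X Y h1 h2 h3
    rw [inner_sub_left, inner_sub_right, inner_sub_right, real_inner_comm X Y] at h3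
    linarith
  have PQ : inner ℝ P Q = ℓ ^ 2 / 2 := half _ _ PP QQ (by
    rw [hP, hQ, sub_sub_sub_cancel_right]; exact d _ _ (by decide))
  have PR : inner ℝ P R = ℓ ^ 2 / 2 := half _ _ PP RR (by
    rw [hP, hR, sub_sub_sub_cancel_right]; exact d _ _ (by decide))
  have QR : inner ℝ Q R = ℓ ^ 2 / 2 := half _ _ QQ RR (by
    rw [hQ, hR, sub_sub_sub_cancel_right]; exact d _ _ (by decide))
  have QP : inner ℝ Q P = ℓ ^ 2 / 2 := by rw [real_inner_comm]; exact PQ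
  have RP : inner ℝ R P = ℓ ^ 2 / 2 := by rw [real_inner_comm]; exact PR
  have RQ : inner ℝ R Q = ℓ ^ 2 / 2 := by rw [real_inner_comm]; exact QR
  let e : Fin 3 → E3 := ![(-ℓ⁻¹) • P, ℓ⁻¹ • (Q - R), (ℓ * Real.sqrt 2)⁻¹ • (Q + R - P)]
  have he : Orthonormal ℝ e := by
    rw [orthonormal_iff_ite]
    intro i j
    fin_cases i <;> fin_cases j <;>
      simp only [e, Fin.zero_eta, Fin.mk_one, Fin.reduceFinMk, Matrix.cons_val_zero,
        Matrix.cons_val_one, Matrix.cons_val, real_inner_smul_left, real_inner_smul_right,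
        inner_sub_left, inner_sub_right, inner_add_left, inner_add_right, PP, QQ, RR, PQ, PR, QR,
        QP, RP, RQ, Fin.isValue, ↓reduceIte, Fin.reduceEq] <;>
      field_simp <;> first | ring1 | (rw [hs2]; ring1)
  let b : OrthonormalBasis (Fin 3) ℝ E3 := OrthonormalBasis.mk he
    (he.linearIndependent.span_eq_top_of_card_eq_finrank (by simp)).ge
  have hT : ∀ x : E3, b.repr.symm x = x 0 • e 0 + x 1 • e 1 + x 2 • e 2 := by
    intro x
    rw [← b.sum_repr_symm, Fin.sum_univ_three]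
    simp [b]
  refine ⟨b.repr.symm, w 0 + (1 / 2 : ℝ) • P, ?_⟩
  let Φ : E3 →ᵃ[ℝ] E3 := AffineMap.const ℝ E3 (w 0 + (1 / 2 : ℝ) • P) +
    ((ℓ / 2) • b.repr.symm.toLinearEquiv.toLinearMap).toAffineMap
  have hΦ : (fun x => w 0 + (1 / 2 : ℝ) • P + (ℓ / 2) • b.repr.symm x) = Φ := by
    funext x; simp [Φ]
  rw [hΦ, K0, AffineMap.image_convexHull, ← hΦ]
  congr 1
  have r4 : Set.range w = {w 0, w 1, w 2, w 3} := by
    ext x
    simp only [Set.mem_range, Set.mem_insert_iff, Set.mem_singleton_iff]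
    constructor
    · rintro ⟨i, rfl⟩; fin_cases i <;> simp
    · rintro (rfl | rfl | rfl | rfl) <;> exact ⟨_, rfl⟩
  have w1 : w 1 = w 0 + P := by rw [hP]; abel
  have w2 : w 2 = w 0 + Q := by rw [hQ]; abel
  have w3 : w 3 = w 0 + R := by rw [hR]; abel
  have c1 : ℓ / 2 * ℓ⁻¹ = 1 / 2 := by field_simp
  have c2 : ℓ / 2 * (Real.sqrt 2 * (ℓ * Real.sqrt 2)⁻¹) = 1 / 2 := by field_simp
  rw [r4]
  simp only [Set.image_insert_eq, Set.image_singleton, hT]
  congr 1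
  · simp only [e]; simp [smul_smul, c1]
  congr 1
  · simp only [e]; simp [smul_smul, c1, w1]; module
  congr 1
  · simp only [e]; simp only [Matrix.cons_val_zero, Matrix.cons_val_one, Matrix.cons_val,
      smul_add, smul_smul, zero_mul, one_mul, mul_zero, zero_smul, c1, c2, w2]; module
  congr 1
  · simp only [e]; simp only [Matrix.cons_val_zero, Matrix.cons_val_one, Matrix.cons_val,
      smul_add, smul_smul, zero_mul, neg_mul, mul_neg, one_mul, mul_zero, zero_smul, c1, c2, w3]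
    module

end Crest.Agent.R211
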