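import Crest.Agent.R211.Tetra

/-! Converting oblique covers to covers with perpendicular bases. -/

set_option autoImplicit false
open MeasureTheory
open scoped ENNReal

namespace Crest.Agent.R211

lemma norm_unit {u : E3} (hu : u ≠ 0) : ‖(‖u‖⁻¹ • u : E3)‖ = 1 := by
  rw [norm_smul, norm_inv, norm_norm, inv_mul_cancel₀ (norm_ne_zero_iff.mpr hu)]

lemma inner_proj_unit {u : E3} (hu : u ≠ 0) (y : E3) :
    inner ℝ (proj u y) (‖u‖⁻¹ • u : E3) = 0 := by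
  rw [real_inner_smul_right, inner_proj hu, mul_zero]

lemma decomp_unit {u : E3} (hu : u ≠ 0) (c a b : E3) (s t τ : ℝ) :
    ∃ τ' : ℝ, c + s • a + t • b + τ • u =
      proj u c + s • proj u a + t • proj u b + τ' • (‖u‖⁻¹ • u : E3) := by
  have hn : ‖u‖ ≠ 0 := norm_ne_zero_iff.mpr hu
  refine ⟨(inner ℝ (c + s • a + t • b) u / ‖u‖ ^ 2 + τ) * ‖u‖, ?_⟩
  rw [smul_smul, mul_assoc, mul_inv_cancel₀ hn, mul_one, add_smul, ← add_assoc,
    ← proj_smul, ← proj_smul, ← proj_add, ← proj_add, ← eq_proj_add]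

/-- perpendicular triangular bases from an oblique family -/
theorem perp_of_tri {K : Set E3} {n : ℕ} (c a b u : Fin n → E3) (hu : ∀ i, u i ≠ 0)
    (hc : ∀ x ∈ K, ∃ i, ∃ s t τ : ℝ, 0 ≤ s ∧ 0 ≤ t ∧ s + t ≤ 1 ∧
      x = c i + s • a i + t • b i + τ • u i) :
    ∃ (u' p q r : Fin n → E3), (∀ i, ‖u' i‖ = 1) ∧
      (∀ i, inner ℝ (p i) (u' i) = 0 ∧ inner ℝ (q i) (u' i) = 0 ∧ inner ℝ (r i) (u' i) = 0) ∧
      (K ⊆ ⋃ i, {x : E3 | ∃ b ∈ convexHull ℝ {p i, q i, r i}, ∃ t : ℝ, x = b + t • u' i}) ∧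
      ∀ i, μHE[2] (convexHull ℝ ({p i, q i, r i} : Set E3)) =
        ENNReal.ofReal (gram (proj (u i) (a i)) (proj (u i) (b i)) / 2) := by
  refine ⟨fun i => ‖u i‖⁻¹ • u i, fun i => proj (u i) (c i), fun i => proj (u i) (c i + a i),
    fun i => proj (u i) (c i + b i), fun i => norm_unit (hu i),
    fun i => ⟨inner_proj_unit (hu i) _, inner_proj_unit (hu i) _, inner_proj_unit (hu i) _⟩,
    ?_, ?_⟩
  · intro x hx
    obtain ⟨i, s, t, τ, hs, ht, hst, rfl⟩ := hc x hx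
    obtain ⟨τ', h⟩ := decomp_unit (hu i) (c i) (a i) (b i) s t τ
    refine Set.mem_iUnion.mpr ⟨i, _, ?_, τ', h⟩
    rw [mem_convexHull_triple]
    exact ⟨s, t, hs, ht, hst, by simp [proj_add]⟩
  · intro i
    rw [area_triangle]
    simp [proj_add]

/-- padding a cover with one more triangle and degenerate ones -/
theorem TriCov.pad {K : Set E3} {n M : ℕ} {A A' : ℝ} (h : TriCov K n A) (hM : n + 1 ≤ M)
    (hA : A ≤ A') :
    ∃ c a b u : Fin M → E3, (∀ i, u i ≠ 0) ∧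
    (∀ x ∈ K, ∃ i, ∃ s t τ : ℝ, 0 ≤ s ∧ 0 ≤ t ∧ s + t ≤ 1 ∧
      x = c i + s • a i + t • b i + τ • u i) ∧
    ∑ i, gram (proj (u i) (a i)) (proj (u i) (b i)) / 2 = A' := by
  obtain ⟨c, a, b, u, hu, hc, hs⟩ := h
  obtain ⟨j, rfl⟩ : ∃ j, M = n + (j + 1) := ⟨M - n - 1, by omega⟩
  set A0 := ∑ i, gram (proj (u i) (a i)) (proj (u i) (b i)) / 2 with hA0
  have he : (!₂[0, 0, 1] : E3) ≠ 0 := by
    intro h
    have := congrArg (fun v : E3 => v 2) h
    simp at this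
  have hen : ‖(!₂[0, 0, 1] : E3)‖ = 1 := by rw [norm_eq_sqrt3]; simp
  refine ⟨Fin.append c (fun _ => 0), Fin.append a (fun _ => !₂[1, 0, 0]),
    Fin.append b (Fin.cons !₂[0, 2 * (A' - A0), 0] (fun _ => 0)),
    Fin.append u (fun _ => !₂[0, 0, 1]), ?_, ?_, ?_⟩
  · intro i
    refine Fin.addCases (fun i => ?_) (fun i => ?_) i
    · rw [Fin.append_left]; exact hu i
    · rw [Fin.append_right]; exact he
  · intro x hx
    obtain ⟨i, h⟩ := hc x hx
    refine ⟨Fin.castAdd _ i, ?_⟩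
    simpa only [Fin.append_left] using h
  · rw [Fin.sum_univ_add]
    simp only [Fin.append_left, Fin.append_right]
    rw [← hA0, Fin.sum_univ_succ]
    simp only [Fin.cons_zero, Fin.cons_succ, gram_proj he, hen]
    have h1 : det3 (!₂[1, 0, 0] : E3) !₂[0, 2 * (A' - A0), 0] !₂[0, 0, 1] = 2 * (A' - A0) := by
      simp [det3]
    have h2 : det3 (!₂[1, 0, 0] : E3) 0 !₂[0, 0, 1] = 0 := by simp [det3]
    rw [h1, h2, abs_of_nonneg (by linarith)]
    simp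

lemma proj_fun_eq {v : E3} (hv : ‖v‖ = 1) : (fun y : E3 => y - inner ℝ y v • v) = proj v := by
  funext y; rw [proj_of_unit hv]

end Crest.Agent.R211
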