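import Crest.Agent.R211.Para

/-! From sheared square tiles in a slice to oblique parallelogram cylinders. -/

set_option autoImplicit false
open MeasureTheory
open scoped ENNReal

namespace Crest.Agent.R211

theorem paraCov_of_tiles (h M : ℝ) (hh : 0 < h) (D : Set E2) (V : E2 → E2) (A : ℝ)
    (H : ∃ (k : ℕ) (c a b g : Fin k → E2),
      (∀ i, a i ≠ 0 ∧ ‖b i‖ = ‖a i‖ ∧ inner ℝ (a i) (b i) = 0) ∧
      {z : ℝ × E2 | ∃ p ∈ D, abs z.1 ≤ M ∧ z.2 = p + z.1 • V p} ⊆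
        ⋃ i, {z : ℝ × E2 | ∃ x ∈ Set.Icc (0 : ℝ) 1, ∃ y ∈ Set.Icc (0 : ℝ) 1,
          z.2 = c i + x • a i + y • b i + z.1 • g i} ∧
      ∑ i, ‖a i‖ ^ 2 / Real.sqrt (1 + (g i 0) ^ 2 + h ^ 2 * (g i 1) ^ 2) ≤ A) :
    ParaCov {z : E3 | ∃ p ∈ D, ∃ x : ℝ, abs x ≤ M ∧
          z = !₂[x, p 0 + x * V p 0, h * (p 1 + x * V p 1)]} (h * A) := by
  obtain ⟨k, c, a, b, g, h1, h2, h3⟩ := H
  have hu : ∀ i, (!₂[1, g i 0, h * g i 1] : E3) ≠ 0 := by
    intro i h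
    have := congrArg (fun v : E3 => v 0) h
    simp at this
  refine ⟨k, fun i => !₂[0, c i 0, h * c i 1], fun i => !₂[0, a i 0, h * a i 1],
    fun i => !₂[0, b i 0, h * b i 1], fun i => !₂[1, g i 0, h * g i 1], hu, ?_, ?_⟩
  · rintro _ ⟨p, hp, x, hx, rfl⟩
    obtain ⟨i, s, hs, t, ht, e⟩ := Set.mem_iUnion.mp (h2 (a := (x, p + x • V p)) ⟨p, hp, hx, rfl⟩)
    refine ⟨i, s, hs, t, ht, x, ?_⟩
    have e0 := congrArg (fun v : E2 => v 0) e
    have e1 := congrArg (fun v : E2 => v 1) e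
    simp only [PiLp.add_apply, PiLp.smul_apply, smul_eq_mul] at e0 e1
    ext j
    fin_cases j
    · simp
    · simp; linarith
    · simp; linear_combination h * e1
  · refine le_trans (le_of_eq ?_) (mul_le_mul_of_nonneg_left h3 hh.le)
    rw [Finset.mul_sum]
    refine Finset.sum_congr rfl fun i _ => ?_
    rw [gram_proj (hu i), norm_eq_sqrt3]
    obtain ⟨-, e1, e2⟩ := h1 i
    have na : ‖a i‖ ^ 2 = a i 0 ^ 2 + a i 1 ^ 2 := by
      rw [EuclideanSpace.real_norm_sq_eq, Fin.sum_univ_two]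
    have nb : ‖b i‖ ^ 2 = b i 0 ^ 2 + b i 1 ^ 2 := by
      rw [EuclideanSpace.real_norm_sq_eq, Fin.sum_univ_two]
    have iab : b i 0 * a i 0 + b i 1 * a i 1 = 0 := by
      simpa [PiLp.inner_apply, Fin.sum_univ_two] using e2
    have d : det3 (!₂[0, a i 0, h * a i 1] : E3) !₂[0, b i 0, h * b i 1] !₂[1, g i 0, h * g i 1] =
        h * (a i 0 * b i 1 - a i 1 * b i 0) := by simp [det3]; ring
    have ab : |a i 0 * b i 1 - a i 1 * b i 0| = ‖a i‖ ^ 2 := by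
      rw [← sq_eq_sq₀ (abs_nonneg _) (sq_nonneg _), sq_abs]
      rw [e1] at nb
      have : (‖a i‖ ^ 2) ^ 2 = (a i 0 ^ 2 + a i 1 ^ 2) * (b i 0 ^ 2 + b i 1 ^ 2) := by
        rw [← na, ← nb]; ring
      rw [this]
      linear_combination (-(b i 0 * a i 0 + b i 1 * a i 1)) * iab
    rw [d, abs_mul, abs_of_pos hh, ab]
    simp [mul_pow, mul_div_assoc]

end Crest.Agent.R211
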