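import Mathlib

/-! Square tiles in the plane: lattice lemma, frames for traceless maps, boxes and counting. -/

set_option autoImplicit false
open MeasureTheory
open scoped ENNReal

namespace Crest.Agent.R211.Sq

abbrev P2 := EuclideanSpace ℝ (Fin 2)

/-- Unit squares placed at the lattice generated by `(1, C)` and `(B, 1)` cover the plane when
`0 ≤ B C < 1`. -/
lemma lattice_cover (B C : ℝ) (h0 : 0 ≤ B * C) (h1 : B * C < 1) (x y : ℝ) :
    ∃ m n : ℤ, (0 ≤ x - m - B * n ∧ x - m - B * n ≤ 1) ∧ (0 ≤ y - C * m - n ∧ y - C * m - n ≤ 1) := by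
  set φ : ℤ → ℤ := fun n => ⌊y - C * (⌊x - B * n⌋ : ℤ)⌋ with hφ
  have hmono : Monotone φ := by
    intro n n' hnn
    have hn : (n : ℝ) ≤ n' := by exact_mod_cast hnn
    simp only [hφ]
    apply Int.floor_le_floor
    rcases mul_nonneg_iff.1 h0 with ⟨hB, hC⟩ | ⟨hB, hC⟩
    · have : ⌊x - B * n'⌋ ≤ ⌊x - B * n⌋ := Int.floor_le_floor (by nlinarith)
      have : ((⌊x - B * n'⌋ : ℤ) : ℝ) ≤ (⌊x - B * n⌋ : ℤ) := by exact_mod_cast this
      nlinarith
    · have : ⌊x - B * n⌋ ≤ ⌊x - B * n'⌋ := Int.floor_le_floor (by nlinarith)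
      have : ((⌊x - B * n⌋ : ℤ) : ℝ) ≤ (⌊x - B * n'⌋ : ℤ) := by exact_mod_cast this
      nlinarith
  have hbd : ∀ n : ℤ, |(φ n : ℝ) - B * C * n| ≤ |y - C * x| + |C| + 1 := by
    intro n
    have a1 := Int.floor_le (x - B * n)
    have a2 := Int.lt_floor_add_one (x - B * n)
    have a3 := Int.floor_le (y - C * (⌊x - B * n⌋ : ℤ))
    have a4 := Int.lt_floor_add_one (y - C * (⌊x - B * n⌋ : ℤ))
    set u : ℝ := x - B * n - (⌊x - B * n⌋ : ℤ) with hu
    have hu0 : 0 ≤ u := by linarith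
    have hu1 : u ≤ 1 := by linarith
    have hCu : |C * u| ≤ |C| := by
      rw [abs_mul, abs_of_nonneg hu0]
      exact mul_le_of_le_one_right (abs_nonneg _) hu1
    have e : y - C * (⌊x - B * n⌋ : ℤ) = y - C * x + B * C * n + C * u := by
      rw [hu]; ring
    have b1 := abs_le.1 hCu
    have b2 := le_abs_self (y - C * x)
    have b3 := neg_abs_le (y - C * x)
    simp only [hφ]
    rw [abs_le]
    constructor <;> linarith
  set K := |y - C * x| + |C| + 1 with hK
  have hκ : 0 < 1 - B * C := by linarith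
  obtain ⟨N, hN⟩ := exists_nat_gt (K / (1 - B * C))
  have hN' : K < N * (1 - B * C) := by rwa [div_lt_iff₀ hκ] at hN
  have hinh : ∃ n : ℤ, φ n ≤ n := by
    refine ⟨N, ?_⟩
    have := (abs_le.1 (hbd N)).2
    have : (φ N : ℝ) ≤ ((N : ℤ) : ℝ) := by push_cast at this ⊢; nlinarith
    exact_mod_cast this
  have hbdd : ∃ b : ℤ, ∀ n : ℤ, φ n ≤ n → b ≤ n := by
    refine ⟨-N, fun n hn => ?_⟩
    have h2 := (abs_le.1 (hbd n)).1
    have h3 : (φ n : ℝ) ≤ n := by exact_mod_cast hn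
    have : (-N : ℝ) ≤ n := by
      by_contra hcon
      push Not at hcon
      nlinarith
    exact_mod_cast this
  obtain ⟨n, hn, hmin⟩ := Int.exists_least_of_bdd hbdd hinh
  have hfix : φ n = n := by
    apply le_antisymm hn
    have h2 : ¬ φ (n - 1) ≤ n - 1 := fun h => by have := hmin _ h; omega
    have h3 := hmono (show n - 1 ≤ n by omega)
    omega
  refine ⟨⌊x - B * n⌋, n, ⟨?_, ?_⟩, ?_, ?_⟩
  · have := Int.floor_le (x - B * n); linarith
  · have := Int.lt_floor_add_one (x - B * n); linarith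
  · have := Int.floor_le (y - C * (⌊x - B * n⌋ : ℤ))
    have e : ((⌊y - C * (⌊x - B * n⌋ : ℤ)⌋ : ℤ) : ℝ) = n := by exact_mod_cast hfix
    linarith
  · have := Int.lt_floor_add_one (y - C * (⌊x - B * n⌋ : ℤ))
    have e : ((⌊y - C * (⌊x - B * n⌋ : ℤ)⌋ : ℤ) : ℝ) = n := by exact_mod_cast hfix
    linarith

lemma inner2 (a b : P2) : inner ℝ a b = a 0 * b 0 + a 1 * b 1 := by
  simp [PiLp.inner_apply, Fin.sum_univ_two]; ring

lemma normsq2 (a : P2) : ‖a‖ ^ 2 = a 0 ^ 2 + a 1 ^ 2 := by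
  rw [← real_inner_self_eq_norm_sq, inner2]; ring

lemma norm_le_abs_add (a : P2) : ‖a‖ ≤ |a 0| + |a 1| := by
  apply le_of_sq_le_sq _ (by positivity)
  rw [normsq2, ← sq_abs (a 0), ← sq_abs (a 1)]
  nlinarith [abs_nonneg (a 0), abs_nonneg (a 1)]

lemma abs_apply_le (a : P2) (i : Fin 2) : |a i| ≤ ‖a‖ := by
  simpa using PiLp.norm_apply_le a i

lemma apply_coords (A : P2 →L[ℝ] P2) (w : P2) (i : Fin 2) :
    A w i = w 0 * A (EuclideanSpace.single 0 1) i + w 1 * A (EuclideanSpace.single 1 1) i := by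
  have : w = w 0 • (EuclideanSpace.single 0 1 : P2) + w 1 • (EuclideanSpace.single 1 1 : P2) := by
    ext j; fin_cases j <;> simp
  conv_lhs => rw [this]
  simp

lemma trace_coords (A : P2 →L[ℝ] P2) :
    LinearMap.trace ℝ _ A.toLinearMap =
      A (EuclideanSpace.single 0 1) 0 + A (EuclideanSpace.single 1 1) 1 := by
  rw [LinearMap.trace_eq_matrix_trace ℝ (EuclideanSpace.basisFun (Fin 2) ℝ).toBasis,
    Matrix.trace_fin_two]
  simp [LinearMap.toMatrix_apply]

lemma det_coords (A : P2 →L[ℝ] P2) :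
    LinearMap.det A.toLinearMap =
      A (EuclideanSpace.single 0 1) 0 * A (EuclideanSpace.single 1 1) 1 -
        A (EuclideanSpace.single 1 1) 0 * A (EuclideanSpace.single 0 1) 1 := by
  rw [← LinearMap.det_toMatrix (EuclideanSpace.basisFun (Fin 2) ℝ).toBasis, Matrix.det_fin_two]
  simp [LinearMap.toMatrix_apply]

/-- Cayley–Hamilton for a traceless map of the plane. -/
lemma sq_eq_neg_det (A : P2 →L[ℝ] P2) (htr : LinearMap.trace ℝ _ A.toLinearMap = 0) (w : P2) :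
    A (A w) = -(LinearMap.det A.toLinearMap) • w := by
  rw [trace_coords] at htr
  rw [det_coords]
  have hd : A (EuclideanSpace.single 1 1) 1 = - A (EuclideanSpace.single 0 1) 0 := by linarith
  ext i
  rw [apply_coords A (A w), apply_coords A w 0, apply_coords A w 1]
  fin_cases i
  · simp [hd]; ring
  · simp [hd]; ring

/-- A traceless map has zero diagonal in some orthonormal frame. -/
lemma exists_frame (A : P2 →L[ℝ] P2) (htr : LinearMap.trace ℝ _ A.toLinearMap = 0) :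
    ∃ (ob : OrthonormalBasis (Fin 2) ℝ P2) (b c : ℝ), A (ob 0) = c • ob 1 ∧ A (ob 1) = b • ob 0 ∧
      LinearMap.det A.toLinearMap = -(b * c) := by
  rw [trace_coords] at htr
  rw [det_coords]
  set α := A (EuclideanSpace.single 0 1) 0 with hα
  set γ := A (EuclideanSpace.single 0 1) 1 with hγ
  set β := A (EuclideanSpace.single 1 1) 0 with hβ
  have hd : A (EuclideanSpace.single 1 1) 1 = - α := by linarith
  have huv : ∃ u v : ℝ, u ^ 2 + v ^ 2 = 1 ∧ α * (u ^ 2 - v ^ 2) + (β + γ) * u * v = 0 := by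
    by_cases h0 : α = 0
    · exact ⟨1, 0, by norm_num, by simp [h0]⟩
    · obtain ⟨x, hx⟩ := exists_quadratic_eq_zero (a := α) (b := β + γ) (c := -α) h0
        ⟨Real.sqrt ((β + γ) ^ 2 + 4 * α ^ 2), by
          rw [Real.mul_self_sqrt (by positivity)]; unfold discrim; ring⟩
      have hs : 0 < Real.sqrt (x ^ 2 + 1) := Real.sqrt_pos.2 (by positivity)
      have hs2 : Real.sqrt (x ^ 2 + 1) ^ 2 = x ^ 2 + 1 := Real.sq_sqrt (by positivity)
      refine ⟨x / Real.sqrt (x ^ 2 + 1), 1 / Real.sqrt (x ^ 2 + 1), ?_, ?_⟩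
      · field_simp; linarith
      · field_simp; linarith
  obtain ⟨u, v, h1, h2⟩ := huv
  let e : P2 := WithLp.toLp 2 ![u, v]
  let f : P2 := WithLp.toLp 2 ![-v, u]
  have hon : Orthonormal ℝ (![e, f] : Fin 2 → P2) := by
    rw [orthonormal_iff_ite]
    intro i j
    rw [inner2]
    fin_cases i <;> fin_cases j <;> simp [e, f] <;> nlinarith
  let ob : OrthonormalBasis (Fin 2) ℝ P2 :=
    OrthonormalBasis.mk hon (by
      rw [hon.linearIndependent.span_eq_top_of_card_eq_finrank (by simp)])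
  have h0 : ob 0 = e := by simp [ob]
  have h1' : ob 1 = f := by simp [ob]
  refine ⟨ob, -2 * α * u * v + β * u ^ 2 - γ * v ^ 2, -2 * α * u * v - β * v ^ 2 + γ * u ^ 2,
    ?_, ?_, ?_⟩
  · rw [h0, h1']
    ext i
    rw [apply_coords A e]
    fin_cases i
    · simp [e, f, ← hα, ← hβ]
      linear_combination (-(α * u + β * v)) * h1 + u * h2
    · simp [e, f, ← hγ, hd]
      linear_combination (-(γ * u - α * v)) * h1 + v * h2
  · rw [h0, h1']
    ext i
    rw [apply_coords A f]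
    fin_cases i
    · simp [e, f, ← hα, ← hβ]
      linear_combination (-(-α * v + β * u)) * h1 + v * h2
    · simp [e, f, ← hγ, hd]
      linear_combination (-(-γ * v - α * u)) * h1 - u * h2
  · rw [hd]
    linear_combination (-(α ^ 2 + β * γ) * (u ^ 2 + v ^ 2 + 1)) * h1 * (-1) - (α * (u ^ 2 - v ^ 2) + (β + γ) * u * v) * h2

/-- half-open box in the coordinates of an orthonormal frame based at `p0` -/
def box (ob : OrthonormalBasis (Fin 2) ℝ P2) (p0 : P2) (lo hi : Fin 2 → ℝ) : Set P2 :=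
  {z | ∀ i, lo i ≤ ob.repr (z - p0) i ∧ ob.repr (z - p0) i < hi i}

lemma box_eq (ob : OrthonormalBasis (Fin 2) ℝ P2) (p0 : P2) (lo hi : Fin 2 → ℝ) :
    box ob p0 lo hi = (fun z => z - p0) ⁻¹' (ob.repr ⁻¹' ((@WithLp.ofLp 2 (Fin 2 → ℝ)) ⁻¹'
      Set.pi Set.univ (fun i => Set.Ico (lo i) (hi i)))) := by
  ext z; simp [box]

lemma measurableSet_box (ob : OrthonormalBasis (Fin 2) ℝ P2) (p0 : P2) (lo hi : Fin 2 → ℝ) :
    MeasurableSet (box ob p0 lo hi) := by
  rw [box_eq]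
  apply (measurable_sub_const p0)
  apply ob.measurePreserving_repr.measurable
  apply (PiLp.volume_preserving_ofLp (Fin 2)).measurable
  exact MeasurableSet.univ_pi (fun i => measurableSet_Ico)

lemma volume_box (ob : OrthonormalBasis (Fin 2) ℝ P2) (p0 : P2) (lo hi : Fin 2 → ℝ) :
    volume (box ob p0 lo hi) = ENNReal.ofReal (hi 0 - lo 0) * ENNReal.ofReal (hi 1 - lo 1) := by
  have hm : MeasurableSet (Set.pi Set.univ (fun i => Set.Ico (lo i) (hi i))) :=
    MeasurableSet.univ_pi (fun i => measurableSet_Ico)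
  have hm2 := (PiLp.volume_preserving_ofLp (Fin 2)).measurable hm
  have hm3 := ob.measurePreserving_repr.measurable hm2
  rw [box_eq, (measurePreserving_sub_right volume p0).measure_preimage hm3.nullMeasurableSet,
    ob.measurePreserving_repr.measure_preimage hm2.nullMeasurableSet,
    (PiLp.volume_preserving_ofLp (Fin 2)).measure_preimage hm.nullMeasurableSet,
    Real.volume_pi_Ico, Fin.prod_univ_two]

lemma norm_sub_le_of_mem_box {ob : OrthonormalBasis (Fin 2) ℝ P2} {p0 : P2} {lo hi : Fin 2 → ℝ}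
    {d : ℝ} (hd : ∀ i, hi i - lo i ≤ d) {z w : P2} (hz : z ∈ box ob p0 lo hi)
    (hw : w ∈ box ob p0 lo hi) : ‖z - w‖ ≤ 2 * d := by
  rw [← ob.repr.norm_map]
  have e : ∀ i, ob.repr (z - w) i = ob.repr (z - p0) i - ob.repr (w - p0) i := by
    intro i
    rw [show z - w = (z - p0) - (w - p0) by abel, map_sub]; rfl
  have hi' : ∀ i, |ob.repr (z - w) i| ≤ d := by
    intro i
    rw [e, abs_le]
    have := hz i; have := hw i; have := hd i
    constructor <;> linarith [(hz i).1, (hz i).2, (hw i).1, (hw i).2]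
  have := norm_le_abs_add (ob.repr (z - w))
  linarith [hi' 0, hi' 1]

/-- the half-open lattice tile of side `a` with index `m` -/
def tile (ob : OrthonormalBasis (Fin 2) ℝ P2) (p0 : P2) (a : ℝ) (m : Fin 2 → ℤ) : Set P2 :=
  box ob p0 (fun i => a * m i) (fun i => a * m i + a)

lemma measurableSet_tile (ob : OrthonormalBasis (Fin 2) ℝ P2) (p0 : P2) (a : ℝ) (m : Fin 2 → ℤ) :
    MeasurableSet (tile ob p0 a m) := measurableSet_box _ _ _ _

lemma volume_tile (ob : OrthonormalBasis (Fin 2) ℝ P2) (p0 : P2) {a : ℝ} (ha : 0 < a)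
    (m : Fin 2 → ℤ) : volume (tile ob p0 a m) = ENNReal.ofReal (a ^ 2) := by
  rw [tile, volume_box, ← ENNReal.ofReal_mul (by linarith)]
  congr 1; ring

lemma tile_unique {ob : OrthonormalBasis (Fin 2) ℝ P2} {p0 : P2} {a : ℝ} (ha : 0 < a)
    {m n : Fin 2 → ℤ} {z : P2} (hm : z ∈ tile ob p0 a m) (hn : z ∈ tile ob p0 a n) : m = n := by
  funext i
  obtain ⟨h1, h2⟩ := hm i
  obtain ⟨h3, h4⟩ := hn i
  have h5 : (m i : ℝ) < n i + 1 := by
    by_contra h; push Not at h; nlinarith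
  have h6 : (n i : ℝ) < m i + 1 := by
    by_contra h; push Not at h; nlinarith
  have h5' : m i < n i + 1 := by exact_mod_cast h5
  have h6' : n i < m i + 1 := by exact_mod_cast h6
  omega

lemma exists_mem_tile (ob : OrthonormalBasis (Fin 2) ℝ P2) (p0 : P2) {a : ℝ} (ha : 0 < a)
    (z : P2) : ∃ m, z ∈ tile ob p0 a m := by
  refine ⟨fun i => ⌊ob.repr (z - p0) i / a⌋, fun i => ?_⟩
  have h1 := Int.floor_le (ob.repr (z - p0) i / a)
  have h2 := Int.lt_floor_add_one (ob.repr (z - p0) i / a)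
  rw [le_div_iff₀ ha] at h1
  rw [div_lt_iff₀ ha] at h2
  constructor <;> simp only <;> linarith

lemma norm_sub_le_of_mem_tile {ob : OrthonormalBasis (Fin 2) ℝ P2} {p0 : P2} {a : ℝ}
    {m : Fin 2 → ℤ} {z w : P2} (hz : z ∈ tile ob p0 a m) (hw : w ∈ tile ob p0 a m) :
    ‖z - w‖ ≤ 2 * a :=
  norm_sub_le_of_mem_box (fun i => by simp) hz hw

lemma card_tiles_le (ob : OrthonormalBasis (Fin 2) ℝ P2) (p0 : P2) {a : ℝ} (ha : 0 < a)
    {W : Set P2} (hW : volume W ≠ ⊤) (t : Finset (Fin 2 → ℤ))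
    (ht : ∀ m ∈ t, tile ob p0 a m ⊆ W) : (t.card : ℝ) * a ^ 2 ≤ (volume W).toReal := by
  have h1 : volume (⋃ m ∈ t, tile ob p0 a m) = ∑ m ∈ t, volume (tile ob p0 a m) := by
    apply measure_biUnion_finset
    · intro m _ n _ hmn
      exact Set.disjoint_left.2 fun z hz hz' => hmn (tile_unique ha hz hz')
    · intro m _; exact measurableSet_tile _ _ _ _
  have h2 : volume (⋃ m ∈ t, tile ob p0 a m) ≤ volume W :=
    measure_mono (Set.iUnion₂_subset ht)
  rw [h1] at h2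
  simp only [volume_tile ob p0 ha, Finset.sum_const, nsmul_eq_mul] at h2
  have h3 := ENNReal.toReal_mono hW h2
  rwa [ENNReal.toReal_mul, ENNReal.toReal_natCast, ENNReal.toReal_ofReal (by positivity)] at h3

lemma finite_tiles (ob : OrthonormalBasis (Fin 2) ℝ P2) (p0 : P2) {a : ℝ} (ha : 0 < a)
    {W : Set P2} (hW : volume W ≠ ⊤) : {m | tile ob p0 a m ⊆ W}.Finite := by
  by_contra hinf
  obtain ⟨N, hN⟩ := exists_nat_gt ((volume W).toReal / a ^ 2)
  obtain ⟨t, ht, hc⟩ := Set.Infinite.exists_subset_card_eq hinf N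
  have := card_tiles_le ob p0 ha hW t (fun m hm => ht hm)
  rw [hc] at this
  rw [div_lt_iff₀ (by positivity)] at hN
  linarith

/-- the corner of a tile -/
noncomputable def corner (ob : OrthonormalBasis (Fin 2) ℝ P2) (p0 : P2) (a : ℝ) (m : Fin 2 → ℤ) :
    P2 := p0 + (a * m 0) • ob 0 + (a * m 1) • ob 1

lemma corner_mem (ob : OrthonormalBasis (Fin 2) ℝ P2) (p0 : P2) {a : ℝ} (ha : 0 < a)
    (m : Fin 2 → ℤ) : corner ob p0 a m ∈ tile ob p0 a m := by
  have e : corner ob p0 a m - p0 = (a * m 0) • ob 0 + (a * m 1) • ob 1 := by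
    unfold corner; abel
  intro i
  rw [e]
  fin_cases i <;> simp [ha]

/-- The linear model: at every time `s` the moving tiles cover the plane. -/
lemma linear_cover (A : P2 →L[ℝ] P2) (htr : LinearMap.trace ℝ _ A.toLinearMap = 0) {L : ℝ}
    (hL : 0 < L) (hdet : -(L ^ 2)⁻¹ < LinearMap.det A.toLinearMap ∧ LinearMap.det A.toLinearMap ≤ 0) :
    ∃ ob : OrthonormalBasis (Fin 2) ℝ P2, ∀ (p0 v0 : P2) (a : ℝ), 0 < a → ∀ s : ℝ, |s| ≤ L →
      ∀ z : P2, ∃ m : Fin 2 → ℤ, ∃ x ∈ Set.Icc (0 : ℝ) 1, ∃ y ∈ Set.Icc (0 : ℝ) 1,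
        z = corner ob p0 a m + x • (a • ob 0) + y • (a • ob 1) +
          s • (v0 + A (corner ob p0 a m - p0)) := by
  obtain ⟨ob, b, c, h0, h1, hd⟩ := exists_frame A htr
  refine ⟨ob, fun p0 v0 a ha s hs z => ?_⟩
  rw [hd] at hdet
  have hs2 : s ^ 2 ≤ L ^ 2 := by rw [← sq_abs s]; gcongr
  have hbc : 0 ≤ b * c := by linarith [hdet.2]
  have hbc' : L ^ 2 * (b * c) < 1 := by
    have : b * c < (L ^ 2)⁻¹ := by linarith [hdet.1]
    calc L ^ 2 * (b * c) < L ^ 2 * (L ^ 2)⁻¹ := by gcongr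
      _ = 1 := by field_simp
  set w := z - p0 - s • v0 with hw
  obtain ⟨m, n, ⟨a1, a2⟩, a3, a4⟩ := lattice_cover (s * b) (s * c) (by nlinarith [sq_nonneg s])
    (by nlinarith) (ob.repr w 0 / a) (ob.repr w 1 / a)
  refine ⟨![m, n], _, ⟨a1, a2⟩, _, ⟨a3, a4⟩, ?_⟩
  have e : corner ob p0 a ![m, n] - p0 = (a * m) • ob 0 + (a * n) • ob 1 := by
    unfold corner; simp; abel
  have hsum := ob.sum_repr w
  rw [Fin.sum_univ_two] at hsum
  have hz : z = p0 + s • v0 + (ob.repr w 0 • ob 0 + ob.repr w 1 • ob 1) := by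
    rw [hsum, hw]; abel
  rw [e, map_add, map_smul, map_smul, h0, h1]
  conv_lhs => rw [hz]
  unfold corner
  simp only [Matrix.cons_val_zero, Matrix.cons_val_one]
  match_scalars
  all_goals field_simp
  all_goals ring

/-- uniform invertibility of `1 + s A` -/
lemma norm_le_of_traceless (A : P2 →L[ℝ] P2) (htr : LinearMap.trace ℝ _ A.toLinearMap = 0) {L : ℝ}
    (hL : 0 < L) (hdet : -(L ^ 2)⁻¹ < LinearMap.det A.toLinearMap ∧ LinearMap.det A.toLinearMap ≤ 0)
    (s : ℝ) (hs : |s| ≤ L) (w : P2) :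
    ‖w‖ ≤ (1 + L * ‖A‖) / (1 + L ^ 2 * LinearMap.det A.toLinearMap) * ‖w + s • A w‖ := by
  set d := LinearMap.det A.toLinearMap with hd
  have hs2 : s ^ 2 ≤ L ^ 2 := by rw [← sq_abs s]; gcongr
  have hpos : 0 < 1 + L ^ 2 * d := by
    have : L ^ 2 * (-(L ^ 2)⁻¹) < L ^ 2 * d := by gcongr; exact hdet.1
    have e : L ^ 2 * (-(L ^ 2)⁻¹) = -1 := by field_simp
    linarith
  have hle : 1 + L ^ 2 * d ≤ 1 + s ^ 2 * d := by nlinarith [hdet.2]
  have e : (w + s • A w) - s • A (w + s • A w) = (1 + s ^ 2 * d) • w := by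
    rw [map_add, map_smul, sq_eq_neg_det A htr, ← hd]
    match_scalars <;> ring
  have h1 : ‖(w + s • A w) - s • A (w + s • A w)‖ ≤ (1 + L * ‖A‖) * ‖w + s • A w‖ := by
    refine (norm_sub_le _ _).trans ?_
    rw [norm_smul, Real.norm_eq_abs]
    have := A.le_opNorm (w + s • A w)
    have h2 : |s| * ‖A (w + s • A w)‖ ≤ L * (‖A‖ * ‖w + s • A w‖) := by gcongr
    linarith
  rw [e, norm_smul, Real.norm_eq_abs, abs_of_pos (by linarith)] at h1
  rw [div_mul_eq_mul_div, le_div_iff₀ hpos]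
  nlinarith [norm_nonneg w]

end Crest.Agent.R211.Sq
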