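import Crest.Agent.R211.SqBasic

/-! Covering one grid cell of the ruled set by moving square tiles, and the grid sum. -/

set_option autoImplicit false
open MeasureTheory
open scoped ENNReal

namespace Crest.Agent.R211.Sq

lemma local_cover (V : P2 → P2) (D : Set P2) {L θ r K η a : ℝ} (hL : 0 < L) (hθ : 0 < θ)
    (hθ1 : θ ≤ 1) (hr : 0 < r) (hK0 : 0 ≤ K) (hη : 0 ≤ η) (ha : 0 < a)
    (hsmall : K * (2 * a + L * (η * (2 * r))) + 2 * a < θ * r)
    (o : OrthonormalBasis (Fin 2) ℝ P2) (j : Fin 2 → ℤ) (p0 : P2) (hp0 : p0 ∈ tile o 0 r j)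
    (A : P2 →L[ℝ] P2) (htr : LinearMap.trace ℝ _ A.toLinearMap = 0)
    (hdet : -(L ^ 2)⁻¹ < LinearMap.det A.toLinearMap ∧ LinearMap.det A.toLinearMap ≤ 0)
    (hK : ∀ s, |s| ≤ L → ∀ w, ‖w‖ ≤ K * ‖w + s • A w‖)
    (hlin : ∀ p ∈ D ∩ tile o 0 r j, ‖V p - V p0 - A (p - p0)‖ ≤ η * ‖p - p0‖) :
    ∃ (ob : OrthonormalBasis (Fin 2) ℝ P2) (T : Finset (Fin 2 → ℤ)),
      (T.card : ℝ) * a ^ 2 ≤ ((1 + 2 * θ) * r) ^ 2 ∧
      (∀ m ∈ T, ‖corner ob p0 a m - p0‖ ≤ 6 * r) ∧
      ∀ p ∈ D ∩ tile o 0 r j, ∀ s, |s| ≤ L → ∃ m ∈ T, ∃ x ∈ Set.Icc (0 : ℝ) 1,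
        ∃ y ∈ Set.Icc (0 : ℝ) 1, p + s • V p = corner ob p0 a m + x • (a • ob 0) + y • (a • ob 1) +
          s • (V p0 + A (corner ob p0 a m - p0)) := by
  obtain ⟨ob, hob⟩ := linear_cover A htr hL hdet
  set W := box o 0 (fun i => r * j i - θ * r) (fun i => r * j i + r + θ * r) with hW
  have hθr : 0 < θ * r := by positivity
  have hWv : volume W = ENNReal.ofReal (((1 + 2 * θ) * r) ^ 2) := by
    rw [hW, volume_box, ← ENNReal.ofReal_mul (by nlinarith)]
    congr 1; ring
  have hWf : volume W ≠ ⊤ := by rw [hWv]; exact ENNReal.ofReal_ne_top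
  have hmem : ∀ p ∈ tile o 0 r j, ∀ z, ‖z - p‖ < θ * r → z ∈ W := by
    intro p hp z hz i
    have e : o.repr (z - 0) i = o.repr (p - 0) i + o.repr (z - p) i := by
      rw [show z - 0 = (p - 0) + (z - p) by abel, map_add]; rfl
    have h1 := abs_apply_le (o.repr (z - p)) i
    rw [o.repr.norm_map] at h1
    have h2 := abs_le.1 h1
    obtain ⟨h3, h4⟩ := hp i
    rw [e]
    constructor <;> simp only at h3 h4 ⊢ <;> linarith
  have hfin := finite_tiles ob p0 ha hWf
  refine ⟨ob, hfin.toFinset, ?_, ?_, ?_⟩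
  · have := card_tiles_le ob p0 ha hWf hfin.toFinset (fun m hm => by simpa using hm)
    rwa [hWv, ENNReal.toReal_ofReal (by positivity)] at this
  · intro m hm
    have hm' : tile ob p0 a m ⊆ W := by simpa using hm
    have h1 := hm' (corner_mem ob p0 ha m)
    have h2 : p0 ∈ W := hmem p0 hp0 p0 (by simpa using hθr)
    have := norm_sub_le_of_mem_box (d := 3 * r) (fun i => by nlinarith) h1 h2
    linarith
  · intro p hp s hs
    obtain ⟨m, x, hx, y, hy, hz⟩ := hob p0 (V p0) a ha s hs (p + s • V p)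
    refine ⟨m, ?_, x, hx, y, hy, hz⟩
    rw [Set.Finite.mem_toFinset]
    intro z hz'
    apply hmem p hp.2
    set c := corner ob p0 a m with hc
    have e : (p - c) + s • A (p - c) = x • (a • ob 0) + y • (a • ob 1) -
        s • (V p - V p0 - A (p - p0)) := by
      have e1 : A (p - c) = A (p - p0) - A (c - p0) := by
        rw [← map_sub]; congr 1; abel
      have e2 : p = c + x • (a • ob 0) + y • (a • ob 1) + s • (V p0 + A (c - p0)) - s • V p := by
        rw [← hz]; abel
      rw [e1]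
      have e3 : p - c = x • (a • ob 0) + y • (a • ob 1) + s • (V p0 + A (c - p0)) - s • V p := by
        conv_lhs => rw [e2]
        abel
      rw [e3]
      module
    have hn0 : ‖x • (a • ob 0)‖ ≤ a := by
      rw [norm_smul, norm_smul, ob.orthonormal.1 0, Real.norm_eq_abs, Real.norm_eq_abs,
        abs_of_nonneg hx.1, abs_of_pos ha]
      nlinarith [hx.2]
    have hn1 : ‖y • (a • ob 1)‖ ≤ a := by
      rw [norm_smul, norm_smul, ob.orthonormal.1 1, Real.norm_eq_abs, Real.norm_eq_abs,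
        abs_of_nonneg hy.1, abs_of_pos ha]
      nlinarith [hy.2]
    have hpp : ‖p - p0‖ ≤ 2 * r := norm_sub_le_of_mem_tile hp.2 hp0
    have hn2 : ‖s • (V p - V p0 - A (p - p0))‖ ≤ L * (η * (2 * r)) := by
      rw [norm_smul, Real.norm_eq_abs]
      have := hlin p hp
      have h2 : η * ‖p - p0‖ ≤ η * (2 * r) := by gcongr
      gcongr
      linarith
    have h3 : ‖(p - c) + s • A (p - c)‖ ≤ 2 * a + L * (η * (2 * r)) := by
      rw [e]
      refine (norm_sub_le _ _).trans ?_
      have := norm_add_le (x • (a • ob 0)) (y • (a • ob 1))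
      linarith
    have h4 : ‖p - c‖ ≤ K * (2 * a + L * (η * (2 * r))) :=
      (hK s hs _).trans (by gcongr)
    have h5 : ‖z - c‖ ≤ 2 * a := norm_sub_le_of_mem_tile hz' (corner_mem ob p0 ha m)
    have h6 : ‖z - p‖ ≤ ‖z - c‖ + ‖p - c‖ := by
      rw [show z - p = (z - c) - (p - c) by abel]; exact norm_sub_le _ _
    linarith

/-- upper Riemann sum over the grid cells meeting `D` -/
lemma grid_sum_le (D : Set P2) (hD : IsCompact D) (F : P2 → ℝ) (hF : ContinuousOn F D)
    (hF0 : ∀ p, 0 ≤ F p) (hF1 : ∀ p, F p ≤ 1) (o : OrthonormalBasis (Fin 2) ℝ P2) {r t : ℝ}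
    (hr : 0 < r) (ht : 0 ≤ t) (S : Finset (Fin 2 → ℤ)) (q : (Fin 2 → ℤ) → P2)
    (hq : ∀ j ∈ S, q j ∈ D ∩ tile o 0 r j)
    (hunif : ∀ p ∈ D, ∀ p' ∈ D, ‖p - p'‖ ≤ 2 * r → F p ≤ F p' + t) :
    ∑ j ∈ S, r ^ 2 * F (q j) ≤ (∫ p in D, F p) + t * (volume D).toReal +
      ((volume (Metric.cthickening (2 * r) D)).toReal - (volume D).toReal) := by
  set C := Metric.cthickening (2 * r) D with hC
  have hCc : IsCompact C := hD.cthickening
  have hDm : MeasurableSet D := hD.measurableSet
  have hCm : MeasurableSet C := hCc.measurableSet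
  have hDC : D ⊆ C := Metric.self_subset_cthickening _
  have hDf : volume D ≠ ⊤ := hD.measure_lt_top.ne
  have hCf : volume C ≠ ⊤ := hCc.measure_lt_top.ne
  have hCDf : volume (C \ D) ≠ ⊤ := ne_top_of_le_ne_top hCf (measure_mono Set.sdiff_subset)
  have hFi : IntegrableOn F D := hF.integrableOn_compact hD
  have hti : ∀ j, ∀ c : ℝ, Integrable ((tile o 0 r j).indicator fun _ => c) := by
    intro j c
    rw [integrable_indicator_iff (measurableSet_tile _ _ _ _)]
    exact integrableOn_const (by rw [volume_tile o 0 hr]; exact ENNReal.ofReal_ne_top)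
  have h1 : ∑ j ∈ S, r ^ 2 * F (q j) =
      ∫ x, ∑ j ∈ S, (tile o 0 r j).indicator (fun _ => F (q j)) x := by
    rw [integral_finsetSum _ (fun j _ => hti j _)]
    refine Finset.sum_congr rfl fun j _ => ?_
    rw [integral_indicator_const _ (measurableSet_tile _ _ _ _), Measure.real, volume_tile o 0 hr,
      ENNReal.toReal_ofReal (by positivity), smul_eq_mul]
  have hi1 : Integrable (D.indicator fun p => F p + t) := by
    rw [integrable_indicator_iff hDm]
    exact hFi.add (integrableOn_const hDf)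
  have hi2 : Integrable ((C \ D).indicator fun _ => (1 : ℝ)) := by
    rw [integrable_indicator_iff (hCm.diff hDm)]
    exact integrableOn_const hCDf
  have h2 : ∫ x, (D.indicator (fun p => F p + t) x + (C \ D).indicator (fun _ => (1 : ℝ)) x) =
      (∫ p in D, F p) + t * (volume D).toReal + ((volume C).toReal - (volume D).toReal) := by
    rw [integral_add hi1 hi2, integral_indicator hDm, integral_indicator_const _ (hCm.diff hDm),
      integral_add hFi (integrableOn_const hDf), setIntegral_const, Measure.real, Measure.real,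
      measure_sdiff hDC hDm.nullMeasurableSet hDf, ENNReal.toReal_sub_of_le (measure_mono hDC) hCf]
    simp [mul_comm]
  rw [h1, ← h2]
  apply integral_mono (integrable_finsetSum _ (fun j _ => hti j _)) (hi1.add hi2)
  intro x
  have hn1 : 0 ≤ D.indicator (fun p => F p + t) x :=
    Set.indicator_nonneg (fun p _ => by linarith [hF0 p]) x
  have hn2 : 0 ≤ (C \ D).indicator (fun _ => (1 : ℝ)) x :=
    Set.indicator_nonneg (fun p _ => zero_le_one) x
  by_cases hx : ∃ j ∈ S, x ∈ tile o 0 r j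
  · obtain ⟨j, hj, hxj⟩ := hx
    have e : ∑ i ∈ S, (tile o 0 r i).indicator (fun _ => F (q i)) x = F (q j) := by
      rw [Finset.sum_eq_single j]
      · simp [hxj]
      · intro i _ hij
        exact Set.indicator_of_notMem (fun h => hij (tile_unique hr h hxj)) _
      · intro h; exact absurd hj h
    have hd : ‖q j - x‖ ≤ 2 * r := norm_sub_le_of_mem_tile (hq j hj).2 hxj
    show ∑ i ∈ S, (tile o 0 r i).indicator (fun _ => F (q i)) x ≤
      D.indicator (fun p => F p + t) x + (C \ D).indicator (fun _ => (1 : ℝ)) x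
    rw [e]
    by_cases hxD : x ∈ D
    · have := hunif _ (hq j hj).1 x hxD hd
      rw [Set.indicator_of_mem hxD]
      linarith
    · have hxC : x ∈ C := Metric.mem_cthickening_of_dist_le x (q j) _ _ (hq j hj).1
        (by rw [dist_comm, dist_eq_norm]; exact hd)
      rw [Set.indicator_of_mem (show x ∈ C \ D from ⟨hxC, hxD⟩)]
      linarith [hF1 (q j)]
  · push Not at hx
    show ∑ i ∈ S, (tile o 0 r i).indicator (fun _ => F (q i)) x ≤
      D.indicator (fun p => F p + t) x + (C \ D).indicator (fun _ => (1 : ℝ)) x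
    rw [Finset.sum_eq_zero (fun i hi => Set.indicator_of_notMem (hx i hi) _)]
    linarith

/-- metric form of uniform continuity at a compact set -/
lemma unif_at {X Y : Type*} [PseudoMetricSpace X] [PseudoMetricSpace Y] {s : Set X}
    (hs : IsCompact s) (f : X → Y) (hf : ∀ a ∈ s, ContinuousAt f a) {t : ℝ} (ht : 0 < t) :
    ∃ δ > 0, ∀ a ∈ s, ∀ b, dist a b < δ → dist (f a) (f b) < t := by
  have := hs.uniformContinuousAt_of_continuousAt f hf (Metric.dist_mem_uniformity ht)
  obtain ⟨δ, hδ, h⟩ := Metric.mem_uniformity_dist.1 this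
  exact ⟨δ, hδ, fun a ha b hab => h hab ha⟩

end Crest.Agent.R211.Sq
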