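import Crest.Agent.R211.Area

/-! Cell-by-cell analysis of a radial sweep. -/

set_option autoImplicit false
open MeasureTheory
open scoped ENNReal

namespace Crest.Agent.R211

lemma sweep_telescope (N : ℕ) (f : Fin (N + 1) → ℝ) :
    ∑ i : Fin N, (f i.succ - f i.castSucc) = f (Fin.last N) - f 0 := by
  have h1 := Fin.sum_univ_succ f
  have h2 := Fin.sum_univ_castSucc f
  rw [Finset.sum_sub_distrib]
  linarith

lemma sweep_exists_cell {N : ℕ} (t : Fin (N + 1) → ℝ) (τ : ℝ) (h : t 0 < t (Fin.last N))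
    (h0 : t 0 ≤ τ) (h1 : τ ≤ t (Fin.last N)) :
    ∃ i : Fin N, t i.castSucc ≤ τ ∧ τ ≤ t i.succ := by
  by_contra hcon
  push Not at hcon
  have key : ∀ j : Fin (N + 1), t j ≤ τ := by
    intro j
    induction j using Fin.induction with
    | zero => exact h0
    | succ i ih => exact (hcon i ih).le
  cases N with
  | zero => exact absurd h (by simp)
  | succ n =>
    have := hcon (Fin.last n) (key _)
    rw [Fin.succ_last] at this
    linarith

lemma gram_pos {a b : E3} (hab : LinearIndependent ℝ ![a, b]) : 0 < gram a b := by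
  unfold gram
  apply Real.sqrt_pos.mpr
  rw [LinearIndependent.pair_iff] at hab
  have ha : a ≠ 0 := by
    rintro rfl
    exact one_ne_zero (hab 1 0 (by simp)).1
  have ha2 : 0 < ‖a‖ ^ 2 := by positivity
  by_contra hcon
  push Not at hcon
  have h1 : ‖(‖a‖ ^ 2) • b - (inner ℝ a b) • a‖ ^ 2 =
      ‖a‖ ^ 2 * (‖a‖ ^ 2 * ‖b‖ ^ 2 - inner ℝ a b ^ 2) := by
    rw [norm_sub_sq_real, norm_smul, norm_smul, real_inner_smul_left, real_inner_smul_right,
      real_inner_comm a b, mul_pow, mul_pow, Real.norm_eq_abs, Real.norm_eq_abs, sq_abs, sq_abs]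
    ring
  have h2 : ‖(‖a‖ ^ 2) • b - (inner ℝ a b) • a‖ ^ 2 ≤ 0 := by
    rw [h1]; exact mul_nonpos_of_nonneg_of_nonpos ha2.le hcon
  have h3 : (‖a‖ ^ 2) • b - (inner ℝ a b) • a = 0 := by
    rw [← norm_eq_zero]
    exact pow_eq_zero_iff (two_ne_zero) |>.mp (le_antisymm h2 (by positivity))
  have h4 := (hab (-(inner ℝ a b)) (‖a‖ ^ 2) (by rw [← h3]; module)).2
  exact ha2.ne' h4

lemma affineIndependent_of_gram_pos {p q r : E3} (h : 0 < gram (q - p) (r - p)) :
    AffineIndependent ℝ ![p, q, r] := by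
  rw [affineIndependent_iff_linearIndependent_vsub ℝ _ (0 : Fin 3)]
  have hli : LinearIndependent ℝ ![q - p, r - p] := by
    rw [LinearIndependent.pair_iff]
    intro s t hst
    unfold gram at h
    have hpos := Real.sqrt_pos.mp h
    set x := q - p
    set y := r - p
    have e1 : s * ‖x‖ ^ 2 + t * inner ℝ x y = 0 := by
      have : inner ℝ x (s • x + t • y) = 0 := by rw [hst, inner_zero_right]
      rwa [inner_add_right, real_inner_smul_right, real_inner_smul_right,
        real_inner_self_eq_norm_sq] at this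
    have e2 : s * inner ℝ x y + t * ‖y‖ ^ 2 = 0 := by
      have : inner ℝ (s • x + t • y) y = 0 := by rw [hst, inner_zero_left]
      rwa [inner_add_left, real_inner_smul_left, real_inner_smul_left,
        real_inner_self_eq_norm_sq] at this
    constructor
    · have : s * (‖x‖ ^ 2 * ‖y‖ ^ 2 - inner ℝ x y ^ 2) = 0 := by
        linear_combination (‖y‖ ^ 2) * e1 - (inner ℝ x y) * e2
      exact (mul_eq_zero.mp this).resolve_right hpos.ne'
    · have : t * (‖x‖ ^ 2 * ‖y‖ ^ 2 - inner ℝ x y ^ 2) = 0 := by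
        linear_combination (‖x‖ ^ 2) * e2 - (inner ℝ x y) * e1
      exact (mul_eq_zero.mp this).resolve_right hpos.ne'
  rw [← linearIndependent_equiv (finSuccAboveEquiv (0 : Fin 3))]
  have : ((fun i : {x // x ≠ (0 : Fin 3)} => (![p, q, r] i -ᵥ ![p, q, r] 0 : E3)) ∘
      (finSuccAboveEquiv (0 : Fin 3))) = ![q - p, r - p] := by
    ext i j
    fin_cases i <;> simp [finSuccAboveEquiv]
  rw [this]
  exact hli

/-- the increment of the direction field inside one cell -/
lemma sweep_decomp {a b : E3} {α β : ℝ} {w : ℝ → E3} {lam : ℝ → ℝ} {Lam : ℝ}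
    (hlam : ContinuousOn lam (Set.Icc α β)) (hLam : ∀ t ∈ Set.Icc α β, |lam t| ≤ Lam)
    (hw' : ∀ t ∈ Set.Icc α β, HasDerivWithinAt w (lam t • (a + t • b)) (Set.Icc α β) t)
    {l r c τ : ℝ} (hl : α ≤ l) (hr : r ≤ β) (hc : c ∈ Set.Icc l r) (hτ : τ ∈ Set.Icc l r) :
    ∃ A B : ℝ, w τ = w c + A • a + B • b ∧ |A| ≤ Lam * (r - l) ∧
      |B - l * A| ≤ Lam * (r - l) ^ 2 ∧ |B - r * A| ≤ Lam * (r - l) ^ 2 := by
  have hsub0 : Set.uIcc c τ ⊆ Set.Icc l r := Set.uIcc_subset_Icc hc hτ
  have hsub : Set.uIcc c τ ⊆ Set.Icc α β := hsub0.trans (Set.Icc_subset_Icc hl hr)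
  have hwc : ContinuousOn w (Set.Icc α β) := fun t ht => (hw' t ht).continuousWithinAt
  have hi1 : IntervalIntegrable lam volume c τ := (hlam.mono hsub).intervalIntegrable
  have hi2 : IntervalIntegrable (fun t => t * lam t) volume c τ :=
    (continuousOn_id.mul (hlam.mono hsub)).intervalIntegrable
  have hftc : ∫ t in c..τ, lam t • (a + t • b) = w τ - w c := by
    apply intervalIntegral.integral_eq_sub_of_hasDeriv_right (hwc.mono hsub)
    · intro x hx
      have hx1 : α < x := lt_of_le_of_lt (le_min (hl.trans hc.1) (hl.trans hτ.1)) hx.1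
      have hx2 : x < β := lt_of_lt_of_le hx.2 (max_le (hc.2.trans hr) (hτ.2.trans hr))
      exact ((hw' x ⟨hx1.le, hx2.le⟩).hasDerivAt (Icc_mem_nhds hx1 hx2)).hasDerivWithinAt
    · apply ContinuousOn.intervalIntegrable
      exact (hlam.mono hsub).smul (continuousOn_const.add (continuousOn_id.smul continuousOn_const))
  have hsplit : ∫ t in c..τ, lam t • (a + t • b) =
      (∫ t in c..τ, lam t) • a + (∫ t in c..τ, t * lam t) • b := by
    have hj1 : IntervalIntegrable (fun t => lam t • a) volume c τ :=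
      ((hlam.mono hsub).smul continuousOn_const).intervalIntegrable
    have hj2 : IntervalIntegrable (fun t => (t * lam t) • b) volume c τ :=
      ((continuousOn_id.mul (hlam.mono hsub)).smul continuousOn_const).intervalIntegrable
    rw [← intervalIntegral.integral_smul_const, ← intervalIntegral.integral_smul_const,
      ← intervalIntegral.integral_add hj1 hj2]
    congr 1
    ext1 t
    rw [smul_add, smul_smul, mul_comm]
  have hLam0 : 0 ≤ Lam := (abs_nonneg _).trans (hLam c (hsub Set.left_mem_uIcc))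
  have hd : |τ - c| ≤ r - l := by
    rw [abs_le]; constructor <;> linarith [hc.1, hc.2, hτ.1, hτ.2]
  have hd0 : 0 ≤ r - l := (abs_nonneg _).trans hd
  have hb : ∀ k ∈ Set.Icc l r,
      |(∫ t in c..τ, t * lam t) - k * ∫ t in c..τ, lam t| ≤ Lam * (r - l) ^ 2 := by
    intro k hk
    rw [← intervalIntegral.integral_const_mul, ← intervalIntegral.integral_sub hi2 (hi1.const_mul _)]
    have := intervalIntegral.norm_integral_le_of_norm_le_const (a := c) (b := τ)
      (f := fun t => t * lam t - k * lam t) (C := (r - l) * Lam) (by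
        intro x hx
        have hx' := Set.uIoc_subset_uIcc hx
        have hx2 := hsub0 hx'
        rw [← sub_mul, Real.norm_eq_abs, abs_mul]
        apply mul_le_mul _ (hLam x (hsub hx')) (abs_nonneg _) hd0
        rw [abs_le]; constructor <;> linarith [hx2.1, hx2.2, hk.1, hk.2])
    rw [Real.norm_eq_abs] at this
    calc _ ≤ (r - l) * Lam * |τ - c| := this
      _ ≤ (r - l) * Lam * (r - l) := by gcongr
      _ = _ := by ring
  refine ⟨∫ t in c..τ, lam t, ∫ t in c..τ, t * lam t, ?_, ?_,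
    hb l ⟨le_rfl, by linarith⟩, hb r ⟨by linarith, le_rfl⟩⟩
  · rw [add_assoc, ← hsplit, hftc]; abel
  · have := intervalIntegral.norm_integral_le_of_norm_le_const (a := c) (b := τ)
      (f := lam) (C := Lam) (fun x hx => hLam x (hsub (Set.uIoc_subset_uIcc hx)))
    rw [Real.norm_eq_abs] at this
    exact this.trans (by gcongr)

lemma det3_fan (a b u : E3) (H l r : ℝ) :
    det3 (H • (a + l • b)) (H • (a + r • b)) u = H ^ 2 * (r - l) * det3 a b u := by
  simp [det3]; ring

/-- area of a projected fan triangle -/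
lemma area_fan {e a b v : E3} (he : ‖e‖ = 1) (ha : inner ℝ a e = 0) (hb : inner ℝ b e = 0)
    (hv : inner ℝ v e = 0) (P : E3) (H : ℝ) {l r : ℝ} (hlr : l ≤ r) :
    gram (proj (e + v) (P + H • (a + l • b)) - proj (e + v) P)
      (proj (e + v) (P + H • (a + r • b)) - proj (e + v) P) =
      H ^ 2 * (r - l) * gram a b / Real.sqrt (1 + ‖v‖ ^ 2) := by
  have hn := norm_add_perp he hv
  have hu : e + v ≠ 0 := by
    rw [← norm_pos_iff, hn]; positivity
  rw [← proj_sub, ← proj_sub, gram_proj hu, add_sub_cancel_left, add_sub_cancel_left, det3_fan,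
    abs_mul, abs_det3_perp he ha hb hv, hn, abs_of_nonneg]
  have : 0 ≤ r - l := by linarith
  positivity

/-- everything about one cell -/
lemma sweep_cell {e a b p₀ : E3} (he : ‖e‖ = 1) (ha : inner ℝ a e = 0) (hb : inner ℝ b e = 0)
    (hab : LinearIndependent ℝ ![a, b]) {L : ℝ} (hL : 0 < L) {α β : ℝ} {R : ℝ → ℝ}
    {w : ℝ → E3} (hw : ∀ t ∈ Set.Icc α β, inner ℝ (w t) e = 0)
    {lam : ℝ → ℝ} {Lam : ℝ} (hLam0 : 0 < Lam)
    (hlam : ContinuousOn lam (Set.Icc α β)) (hLam : ∀ t ∈ Set.Icc α β, |lam t| ≤ Lam)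
    (hw' : ∀ t ∈ Set.Icc α β, HasDerivWithinAt w (lam t • (a + t • b)) (Set.Icc α β) t)
    {l r c m Rm : ℝ} (hl : α ≤ l) (hr : r ≤ β) (hlr : l < r) (hc : c ∈ Set.Icc l r)
    (hm : 0 ≤ m) (hR : ∀ τ ∈ Set.Icc l r, m ≤ R τ ∧ R τ ≤ Rm) :
    ∃ p q r' : E3, (inner ℝ p (e + w c) = 0 ∧ inner ℝ q (e + w c) = 0 ∧
        inner ℝ r' (e + w c) = 0) ∧ AffineIndependent ℝ ![p, q, r'] ∧
      {x : E3 | ∃ τ ∈ Set.Icc l r, ∃ ρ ∈ Set.Icc 0 (R τ), ∃ s : ℝ, abs s ≤ L ∧
          x = p₀ + ρ • (a + τ • b) + s • (e + w τ)} ⊆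
        {x : E3 | ∃ y ∈ convexHull ℝ {p, q, r'}, ∃ σ : ℝ, x = y + σ • (e + w c)} ∧
      (μHE[2] (convexHull ℝ ({p, q, r'} : Set E3))).toReal =
        (Rm + 3 * L * Lam * (r - l)) ^ 2 * (r - l) * gram a b / Real.sqrt (1 + ‖w c‖ ^ 2) / 2 ∧
      (μHE[2] (proj (e + w c) '' {x : E3 | ∃ τ ∈ Set.Icc l r, ∃ ρ ∈ Set.Icc 0 (R τ),
          ∃ s : ℝ, abs s ≤ L ∧ x = p₀ + ρ • (a + τ • b) + s • (e + w τ)})).toReal ≤
        (Rm + 3 * L * Lam * (r - l)) ^ 2 * (r - l) * gram a b / Real.sqrt (1 + ‖w c‖ ^ 2) / 2 ∧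
      m ^ 2 * (r - l) * gram a b / Real.sqrt (1 + ‖w c‖ ^ 2) / 2 ≤
        (μHE[2] (proj (e + w c) '' {x : E3 | ∃ τ ∈ Set.Icc l r, ∃ ρ ∈ Set.Icc 0 (R τ),
          ∃ s : ℝ, abs s ≤ L ∧ x = p₀ + ρ • (a + τ • b) + s • (e + w τ)})).toReal := by
  have hc' : c ∈ Set.Icc α β := ⟨hl.trans hc.1, hc.2.trans hr⟩
  have hv := hw c hc'
  have hn := norm_add_perp he hv
  set u := e + w c with hu_def
  have hu : u ≠ 0 := by
    rw [← norm_pos_iff, hn]; positivity
  have hd : 0 < r - l := by linarith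
  have hRm : 0 ≤ Rm := hm.trans ((hR c hc).1.trans (hR c hc).2)
  set H := Rm + 3 * L * Lam * (r - l) with hH_def
  have hH : 0 < H := by positivity
  have hκ := gram_pos hab
  set X0 := -(2 * L * Lam * (r - l)) with hX0
  set Y0 := l * X0 - L * Lam * (r - l) ^ 2 with hY0
  set P := p₀ + X0 • a + Y0 • b with hP
  set S := {x : E3 | ∃ τ ∈ Set.Icc l r, ∃ ρ ∈ Set.Icc 0 (R τ), ∃ s : ℝ, abs s ≤ L ∧
          x = p₀ + ρ • (a + τ • b) + s • (e + w τ)} with hS
  -- every point of the piece is a point of the flat triangle plus a multiple of `u`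
  have hcov : ∀ x ∈ S, ∃ y ∈ convexHull ℝ ({P, P + H • (a + l • b), P + H • (a + r • b)} : Set E3),
      ∃ σ : ℝ, x = y + σ • u := by
    rintro x ⟨τ, hτ, ρ, hρ, s, hs, rfl⟩
    obtain ⟨A, B, hAB, hA, hB1, hB2⟩ := sweep_decomp hlam hLam hw' hl hr hc hτ
    have hsA : |s * A| ≤ L * (Lam * (r - l)) := by
      rw [abs_mul]; exact mul_le_mul hs hA (abs_nonneg _) hL.le
    have hsB1 : |s * (B - l * A)| ≤ L * (Lam * (r - l) ^ 2) := by
      rw [abs_mul]; exact mul_le_mul hs hB1 (abs_nonneg _) hL.le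
    have hsB2 : |s * (B - r * A)| ≤ L * (Lam * (r - l) ^ 2) := by
      rw [abs_mul]; exact mul_le_mul hs hB2 (abs_nonneg _) hL.le
    rw [abs_le] at hsA hsB1 hsB2
    have hρ1 : 0 ≤ ρ * (τ - l) := mul_nonneg hρ.1 (by linarith [hτ.1])
    have hρ2 : 0 ≤ ρ * (r - τ) := mul_nonneg hρ.1 (by linarith [hτ.2])
    have hρ3 : ρ ≤ Rm := hρ.2.trans (hR τ hτ).2
    refine ⟨p₀ + (ρ + s * A) • a + (ρ * τ + s * B) • b, ?_, s, ?_⟩
    · rw [mem_convexHull_triple]
      refine ⟨(r * (ρ + s * A - X0) - (ρ * τ + s * B - Y0)) / (H * (r - l)),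
        ((ρ * τ + s * B - Y0) - l * (ρ + s * A - X0)) / (H * (r - l)), ?_, ?_, ?_, ?_⟩
      · apply div_nonneg _ (by positivity)
        have : r * (ρ + s * A - X0) - (ρ * τ + s * B - Y0) =
            ρ * (r - τ) + (L * (Lam * (r - l) ^ 2) - s * (B - r * A)) := by
          rw [hY0, hX0]; ring
        rw [this]
        exact add_nonneg hρ2 (sub_nonneg.mpr hsB2.2)
      · apply div_nonneg _ (by positivity)
        have : (ρ * τ + s * B - Y0) - l * (ρ + s * A - X0) =
            ρ * (τ - l) + (s * (B - l * A) - -(L * (Lam * (r - l) ^ 2))) := by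
          rw [hY0]; ring
        rw [this]
        exact add_nonneg hρ1 (sub_nonneg.mpr hsB1.1)
      · rw [← add_div, div_le_one (by positivity)]
        have h1 : ρ + s * A - X0 ≤ H := by
          have : H - (ρ + s * A - X0) = (Rm - ρ) + (L * (Lam * (r - l)) - s * A) := by
            rw [hX0, hH_def]; ring
          linarith only [this, hρ3, hsA.2]
        have h2 : r * (ρ + s * A - X0) - (ρ * τ + s * B - Y0) +
            (ρ * τ + s * B - Y0 - l * (ρ + s * A - X0)) = (ρ + s * A - X0) * (r - l) := by ring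
        rw [h2]
        exact mul_le_mul_of_nonneg_right h1 hd.le
      · rw [add_sub_cancel_left, add_sub_cancel_left, hP]
        have hH' := hH.ne'
        have hd' := hd.ne'
        match_scalars
        · ring
        · field_simp; ring
        · field_simp; ring
    · rw [hAB, hu_def]; module
  have hgram := area_fan he ha hb hv P H hlr.le
  rw [← hu_def] at hgram
  have hsq : 0 < Real.sqrt (1 + ‖w c‖ ^ 2) := by positivity
  have harea : μHE[2] (convexHull ℝ ({proj u P, proj u (P + H • (a + l • b)),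
      proj u (P + H • (a + r • b))} : Set E3)) =
      ENNReal.ofReal (H ^ 2 * (r - l) * gram a b / Real.sqrt (1 + ‖w c‖ ^ 2) / 2) := by
    rw [area_triangle, hgram]
  have hsub : proj u '' S ⊆ convexHull ℝ ({proj u P, proj u (P + H • (a + l • b)),
      proj u (P + H • (a + r • b))} : Set E3) := by
    rintro _ ⟨x, hx, rfl⟩
    obtain ⟨y, hy, σ, rfl⟩ := hcov x hx
    rw [← proj_image_convexHull_triple]
    exact ⟨y, hy, by rw [proj_add, proj_smul, proj_self hu, smul_zero, add_zero]⟩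
  have hfin : μHE[2] (proj u '' S) ≠ ∞ := by
    apply ne_top_of_le_ne_top _ (measure_mono hsub)
    rw [harea]; exact ENNReal.ofReal_ne_top
  refine ⟨proj u P, proj u (P + H • (a + l • b)), proj u (P + H • (a + r • b)),
    ⟨inner_proj hu _, inner_proj hu _, inner_proj hu _⟩, ?_, ?_, ?_, ?_, ?_⟩
  · apply affineIndependent_of_gram_pos
    rw [hgram]; positivity
  · intro x hx
    exact ⟨proj u x, hsub ⟨x, hx, rfl⟩, _, eq_proj_add u x⟩
  · rw [harea, ENNReal.toReal_ofReal (by positivity)]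
  · apply ENNReal.toReal_le_of_le_ofReal (by positivity)
    rw [← harea]; exact measure_mono hsub
  · have hgram2 := area_fan he ha hb hv p₀ m hlr.le
    rw [← hu_def] at hgram2
    have harea2 : μHE[2] (convexHull ℝ ({proj u p₀, proj u (p₀ + m • (a + l • b)),
        proj u (p₀ + m • (a + r • b))} : Set E3)) =
        ENNReal.ofReal (m ^ 2 * (r - l) * gram a b / Real.sqrt (1 + ‖w c‖ ^ 2) / 2) := by
      rw [area_triangle, hgram2]
    rw [← ENNReal.ofReal_le_iff_le_toReal hfin, ← harea2, ← proj_image_convexHull_triple]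
    apply measure_mono
    apply Set.image_mono
    intro x hx
    rw [mem_convexHull_triple] at hx
    obtain ⟨s, t, hs, ht, hst, rfl⟩ := hx
    rcases eq_or_lt_of_le (add_nonneg hs ht) with h0 | hpos
    · have hs0 : s = 0 := by linarith
      have ht0 : t = 0 := by linarith
      refine ⟨l, ⟨le_rfl, hlr.le⟩, 0, ⟨le_rfl, hm.trans (hR l ⟨le_rfl, hlr.le⟩).1⟩, 0,
        by simpa using hL.le, ?_⟩
      rw [hs0, ht0]; simp
    · have hτ : (s * l + t * r) / (s + t) ∈ Set.Icc l r := by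
        constructor
        · rw [le_div_iff₀ hpos]; nlinarith only [mul_nonneg ht hd.le]
        · rw [div_le_iff₀ hpos]; nlinarith only [mul_nonneg hs hd.le]
      refine ⟨(s * l + t * r) / (s + t), hτ, (s + t) * m, ⟨by positivity, ?_⟩, 0,
        by simpa using hL.le, ?_⟩
      · have := (hR _ hτ).1
        nlinarith only [this, mul_nonneg hm (sub_nonneg.mpr hst)]
      · rw [add_sub_cancel_left, add_sub_cancel_left]
        have := hpos.ne'
        match_scalars
        · ring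
        · ring
        · field_simp
        · ring
        · ring

end Crest.Agent.R211
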