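import Crest.Agent.R211.Area
import Crest.Agent.R211.Fan

/-! The two-fan cover of the standard regular tetrahedron and its least projection area. -/

set_option autoImplicit false
open MeasureTheory
open scoped ENNReal

namespace Crest.Agent.R211

/-- the standard regular tetrahedron -/
noncomputable def K0 : Set E3 :=
  convexHull ℝ {!₂[1, 0, 0], !₂[-1, 0, 0], !₂[0, 1, Real.sqrt 2], !₂[0, -1, Real.sqrt 2]}

lemma sqrt2_pos : 0 < Real.sqrt 2 := by positivity

lemma sqrt2_sq : Real.sqrt 2 ^ 2 = 2 := Real.sq_sqrt (by norm_num)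

lemma K0_ineq {x : E3} (hx : x ∈ K0) :
    |x 1| ≤ x 2 / Real.sqrt 2 ∧ |x 0| ≤ 1 - x 2 / Real.sqrt 2 := by
  have hc : Convex ℝ {x : E3 | |x 1| ≤ x 2 / Real.sqrt 2 ∧ |x 0| ≤ 1 - x 2 / Real.sqrt 2} := by
    rintro x ⟨hx1, hx2⟩ y ⟨hy1, hy2⟩ a b ha hb hab
    simp only [Set.mem_ofPred_eq, PiLp.add_apply, PiLp.smul_apply, smul_eq_mul]
    rw [abs_le] at hx1 hx2 hy1 hy2
    have e : (a * x 2 + b * y 2) / Real.sqrt 2 =
        a * (x 2 / Real.sqrt 2) + b * (y 2 / Real.sqrt 2) := by ring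
    rw [e, abs_le, abs_le]
    refine ⟨⟨?_, ?_⟩, ?_, ?_⟩
    · nlinarith [mul_le_mul_of_nonneg_left hx1.1 ha, mul_le_mul_of_nonneg_left hy1.1 hb]
    · nlinarith [mul_le_mul_of_nonneg_left hx1.2 ha, mul_le_mul_of_nonneg_left hy1.2 hb]
    · nlinarith [mul_le_mul_of_nonneg_left hx2.1 ha, mul_le_mul_of_nonneg_left hy2.1 hb]
    · nlinarith [mul_le_mul_of_nonneg_left hx2.2 ha, mul_le_mul_of_nonneg_left hy2.2 hb]
  refine convexHull_min ?_ hc hx
  intro y hy
  simp only [Set.mem_insert_iff, Set.mem_singleton_iff] at hy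
  rcases hy with rfl | rfl | rfl | rfl <;> simp

lemma isCompact_K0 : IsCompact K0 := by
  apply Set.Finite.isCompact_convexHull
  exact Set.toFinite _

/-- A cover by cylinders over oblique triangles `c + s a + t b`, with `n` cylinders and total
perpendicular area at most `A`. -/
def TriCov (K : Set E3) (n : ℕ) (A : ℝ) : Prop :=
  ∃ c a b u : Fin n → E3, (∀ i, u i ≠ 0) ∧
    (∀ x ∈ K, ∃ i, ∃ s t τ : ℝ, 0 ≤ s ∧ 0 ≤ t ∧ s + t ≤ 1 ∧
      x = c i + s • a i + t • b i + τ • u i) ∧
    ∑ i, gram (proj (u i) (a i)) (proj (u i) (b i)) / 2 ≤ A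

lemma norm_eq_sqrt3 (u : E3) : ‖u‖ = Real.sqrt (u 0 ^ 2 + u 1 ^ 2 + u 2 ^ 2) := by
  rw [← normsq3, Real.sqrt_sq (norm_nonneg _)]

theorem triCov_K0 : TriCov K0 (1000000 + 1000000) (Real.sqrt 2 * (1 / 2 - 2 / 10 ^ 7)) := by
  let R : Fin 1000000 → ℝ := fun i => 1 / 2 + cap (mid i)
  let c1 : Fin 1000000 → E3 := fun _ => 0
  let a1 : Fin 1000000 → E3 := fun i => !₂[0, R i * tg i, R i * Real.sqrt 2]
  let b1 : Fin 1000000 → E3 := fun i => !₂[0, R i * tg (i + 1), R i * Real.sqrt 2]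
  let u1 : Fin 1000000 → E3 := fun i => !₂[1, pv i / 100, Real.sqrt 2 * (mid i / 100)]
  let c2 : Fin 1000000 → E3 := fun _ => !₂[0, 0, Real.sqrt 2]
  let a2 : Fin 1000000 → E3 := fun i => !₂[R i * tg i, 0, -(R i * Real.sqrt 2)]
  let b2 : Fin 1000000 → E3 := fun i => !₂[R i * tg (i + 1), 0, -(R i * Real.sqrt 2)]
  let u2 : Fin 1000000 → E3 := fun i => !₂[-(pv i / 100), 1, Real.sqrt 2 * (mid i / 100)]
  have hu1 : ∀ i, u1 i ≠ 0 := by
    intro i h
    have := congrArg (fun v : E3 => v 0) h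
    simp [u1] at this
  have hu2 : ∀ i, u2 i ≠ 0 := by
    intro i h
    have := congrArg (fun v : E3 => v 1) h
    simp [u2] at this
  have hs := sqrt2_pos
  refine ⟨Fin.append c1 c2, Fin.append a1 a2, Fin.append b1 b2, Fin.append u1 u2, ?_, ?_, ?_⟩
  · intro i
    refine Fin.addCases (fun i => ?_) (fun i => ?_) i
    · rw [Fin.append_left]; exact hu1 i
    · rw [Fin.append_right]; exact hu2 i
  · intro x hx
    obtain ⟨h1, h2⟩ := K0_ineq hx
    rcases two_fans (x 0) (x 1) (x 2 / Real.sqrt 2) h1 h2 with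
      ⟨i, hi, s, t, hs0, ht0, hst, e1, e2⟩ | ⟨i, hi, s, t, hs0, ht0, hst, e1, e2⟩
    · refine ⟨Fin.castAdd 1000000 ⟨i, hi⟩, s, t, x 0, hs0, ht0, hst, ?_⟩
      simp only [Fin.append_left]
      rw [div_eq_iff hs.ne'] at e1
      ext k
      fin_cases k
      · simp [c1, a1, b1, u1]
      · simp only [c1, a1, b1, u1, R]; simp; linear_combination e2
      · simp only [c1, a1, b1, u1, R]; simp; linear_combination e1
    · refine ⟨Fin.natAdd 1000000 ⟨i, hi⟩, s, t, x 1, hs0, ht0, hst, ?_⟩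
      simp only [Fin.append_right]
      have e1' : x 2 / Real.sqrt 2 = 1 - ((s + t) * (1 / 2 + cap (mid i)) - mid i / 100 * x 1) := by
        linarith
      rw [div_eq_iff hs.ne'] at e1'
      ext k
      fin_cases k
      · simp only [c2, a2, b2, u2, R]; simp; linear_combination e2
      · simp [c2, a2, b2, u2]
      · simp only [c2, a2, b2, u2, R]; simp; linear_combination e1'
  · rw [Fin.sum_univ_add]
    simp only [Fin.append_left, Fin.append_right]
    have t1 : ∀ i, gram (proj (u1 i) (a1 i)) (proj (u1 i) (b1 i)) / 2 =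
        Real.sqrt 2 * ((1 / 2 + cap (mid i)) ^ 2 * (1 / 500000) /
        Real.sqrt (1 + ((pv i / 100) ^ 2 + 2 * (mid i / 100) ^ 2)) / 2) := by
      intro i
      rw [gram_proj (hu1 i), norm_eq_sqrt3]
      have d : det3 (a1 i) (b1 i) (u1 i) = -(Real.sqrt 2 * (R i ^ 2 * (1 / 500000))) := by
        simp only [det3, a1, b1, u1, tg_succ]; simp; ring
      have n : u1 i 0 ^ 2 + u1 i 1 ^ 2 + u1 i 2 ^ 2 =
          1 + ((pv i / 100) ^ 2 + 2 * (mid i / 100) ^ 2) := by
        simp only [u1]; simp [mul_pow]; ring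
      rw [d, n, abs_neg, abs_of_nonneg (by positivity)]
      simp only [R]; ring
    have t2 : ∀ i, gram (proj (u2 i) (a2 i)) (proj (u2 i) (b2 i)) / 2 =
        Real.sqrt 2 * ((1 / 2 + cap (mid i)) ^ 2 * (1 / 500000) /
        Real.sqrt (1 + ((pv i / 100) ^ 2 + 2 * (mid i / 100) ^ 2)) / 2) := by
      intro i
      rw [gram_proj (hu2 i), norm_eq_sqrt3]
      have d : det3 (a2 i) (b2 i) (u2 i) = -(Real.sqrt 2 * (R i ^ 2 * (1 / 500000))) := by
        simp only [det3, a2, b2, u2, tg_succ]; simp; ring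
      have n : u2 i 0 ^ 2 + u2 i 1 ^ 2 + u2 i 2 ^ 2 =
          1 + ((pv i / 100) ^ 2 + 2 * (mid i / 100) ^ 2) := by
        simp only [u2]; simp [mul_pow]; ring
      rw [d, n, abs_neg, abs_of_nonneg (by positivity)]
      simp only [R]; ring
    simp only [t1, t2]
    rw [← Finset.mul_sum]
    have := mul_le_mul_of_nonneg_left sum_terms_le hs.le
    linarith

/-! ### lower bounds for projection areas -/

lemma det3_proj_left {v : E3} (a b : E3) : det3 a (proj v b) v = det3 a b v := by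
  simp only [det3, proj, PiLp.sub_apply, PiLp.smul_apply, smul_eq_mul]; ring

lemma tri_lower (v : E3) {S : Set E3} (hS : Convex ℝ S) {A B C : E3}
    (hA : A ∈ S) (hB : B ∈ S) (hC : C ∈ S) :
    convexHull ℝ ({proj v A, proj v B, proj v C} : Set E3) ⊆ proj v '' S := by
  rw [← proj_image_convexHull_triple]
  apply Set.image_mono
  apply convexHull_min _ hS
  intro y hy
  simp only [Set.mem_insert_iff, Set.mem_singleton_iff] at hy
  rcases hy with rfl | rfl | rfl <;> assumption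

theorem quad_lower {v : E3} (hv : ‖v‖ = 1) {S : Set E3} (hS : Convex ℝ S) {A B C D : E3}
    (hA : A ∈ S) (hB : B ∈ S) (hC : C ∈ S) (hD : D ∈ S) :
    ENNReal.ofReal (|det3 (C - A) (D - B) v| / 2) ≤ μHE[2] (proj v '' S) := by
  have hv0 : v ≠ 0 := by rintro rfl; simp at hv
  have T1 := area_proj_triangle hv0 A C B
  have T2 := area_proj_triangle hv0 A C D
  rw [hv, div_one] at T1 T2
  have s1 := tri_lower v hS hA hC hB
  have s2 := tri_lower v hS hA hC hD
  have e : det3 (C - A) (D - B) v = det3 (C - A) (D - A) v - det3 (C - A) (B - A) v := by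
    simp only [det3, PiLp.sub_apply]; ring
  set d1 := det3 (C - A) (B - A) v with hd1
  set d2 := det3 (C - A) (D - A) v with hd2
  by_cases hsign : 0 ≤ d1 * d2
  · -- same side
    have : |d2 - d1| ≤ |d1| ∨ |d2 - d1| ≤ |d2| := by
      rcases le_total 0 d1 with h1 | h1 <;> rcases le_total 0 d2 with h2 | h2
      · rcases le_total d1 d2 with h | h
        · right; rw [abs_of_nonneg (by linarith), abs_of_nonneg h2]; linarith
        · left; rw [abs_of_nonpos (by linarith), abs_of_nonneg h1]; linarith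
      · have : d1 * d2 = 0 := le_antisymm (mul_nonpos_of_nonneg_of_nonpos h1 h2) hsign
        rcases mul_eq_zero.mp this with h | h
        · right; rw [h, sub_zero]
        · left; rw [h, zero_sub, abs_neg]
      · have : d1 * d2 = 0 := le_antisymm (mul_nonpos_of_nonpos_of_nonneg h1 h2) hsign
        rcases mul_eq_zero.mp this with h | h
        · right; rw [h, sub_zero]
        · left; rw [h, zero_sub, abs_neg]
      · rcases le_total d1 d2 with h | h
        · left; rw [abs_of_nonneg (by linarith), abs_of_nonpos h1]; linarith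
        · right; rw [abs_of_nonpos (by linarith), abs_of_nonpos h2]; linarith
    rw [e]
    rcases this with h | h
    · calc ENNReal.ofReal (|d2 - d1| / 2) ≤ ENNReal.ofReal (|d1| / 2) :=
            ENNReal.ofReal_le_ofReal (by linarith)
        _ = _ := T1.symm
        _ ≤ _ := measure_mono s1
    · calc ENNReal.ofReal (|d2 - d1| / 2) ≤ ENNReal.ofReal (|d2| / 2) :=
            ENNReal.ofReal_le_ofReal (by linarith)
        _ = _ := T2.symm
        _ ≤ _ := measure_mono s2
  · push Not at hsign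
    have hm : MeasurableSet (convexHull ℝ ({proj v A, proj v C, proj v D} : Set E3)) :=
      ((Set.toFinite _).isCompact_convexHull ℝ).isClosed.measurableSet
    have hsum := measure_union_add_inter (μ := (μHE[2] : Measure E3))
      (convexHull ℝ ({proj v A, proj v C, proj v B} : Set E3)) hm
    have hint : μHE[2] (convexHull ℝ ({proj v A, proj v C, proj v B} : Set E3) ∩
        convexHull ℝ ({proj v A, proj v C, proj v D} : Set E3)) = 0 := by
      have T0 := area_proj_triangle hv0 A C C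
      have z : det3 (C - A) (C - A) v = 0 := by simp only [det3]; ring
      rw [z] at T0
      simp only [abs_zero, zero_div, ENNReal.ofReal_zero] at T0
      refine measure_mono_null ?_ T0
      rintro x ⟨hx1, hx2⟩
      rw [mem_convexHull_triple] at hx1 hx2 ⊢
      obtain ⟨s, t, hs, ht, hst, e1⟩ := hx1
      obtain ⟨s', t', hs', ht', hst', e2⟩ := hx2
      have k1 : det3 (C - A) (x - proj v A) v = t * d1 := by
        have : x - proj v A = proj v (s • (C - A) + t • (B - A)) := by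
          rw [e1, proj_add, proj_smul, proj_smul, proj_sub, proj_sub]; abel
        rw [this, det3_proj_left, hd1]
        simp only [det3, PiLp.sub_apply, PiLp.add_apply, PiLp.smul_apply, smul_eq_mul]; ring
      have k2 : det3 (C - A) (x - proj v A) v = t' * d2 := by
        have : x - proj v A = proj v (s' • (C - A) + t' • (D - A)) := by
          rw [e2, proj_add, proj_smul, proj_smul, proj_sub, proj_sub]; abel
        rw [this, det3_proj_left, hd2]
        simp only [det3, PiLp.sub_apply, PiLp.add_apply, PiLp.smul_apply, smul_eq_mul]; ring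
      have ht0 : t = 0 := by
        by_contra hne
        have htp : 0 < t := lt_of_le_of_ne ht (Ne.symm hne)
        have h3 : t * d1 * d1 = t' * (d1 * d2) := by rw [← k1, k2]; ring
        have hd1ne : d1 ≠ 0 := by rintro h; rw [h] at hsign; simp at hsign
        have : 0 < t * d1 * d1 := by rw [mul_assoc]; exact mul_pos htp (mul_self_pos.mpr hd1ne)
        nlinarith
      refine ⟨s, 0, hs, le_rfl, by linarith, ?_⟩
      rw [e1, ht0]; simp
    rw [hint, add_zero, T1, T2, ← ENNReal.ofReal_add (by positivity) (by positivity)] at hsum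
    rw [e]
    calc ENNReal.ofReal (|d2 - d1| / 2) ≤ ENNReal.ofReal (|d1| / 2 + |d2| / 2) := by
          apply ENNReal.ofReal_le_ofReal
          have := abs_sub d2 d1
          linarith
      _ = _ := hsum.symm
      _ ≤ _ := measure_mono (Set.union_subset s1 s2)

theorem minProj_K0 {v : E3} (hv : ‖v‖ = 1) :
    ENNReal.ofReal (Real.sqrt 2) ≤ μHE[2] (proj v '' K0) := by
  have hc : Convex ℝ K0 := convex_convexHull _ _
  have hA : (!₂[1, 0, 0] : E3) ∈ K0 := subset_convexHull _ _ (by simp)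
  have hB : (!₂[-1, 0, 0] : E3) ∈ K0 := subset_convexHull _ _ (by simp)
  have hC : (!₂[0, 1, Real.sqrt 2] : E3) ∈ K0 := subset_convexHull _ _ (by simp)
  have hD : (!₂[0, -1, Real.sqrt 2] : E3) ∈ K0 := subset_convexHull _ _ (by simp)
  have hfin : μHE[2] (proj v '' K0) ≠ ∞ :=
    (area_proj_lt_top (by rintro rfl; simp at hv) isCompact_K0).ne
  set X := (μHE[2] (proj v '' K0)).toReal with hX
  have conv : ∀ r : ℝ, ENNReal.ofReal r ≤ μHE[2] (proj v '' K0) → r ≤ X := fun r h =>
    (ENNReal.ofReal_le_iff_le_toReal hfin).mp h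
  have q1 := conv _ (quad_lower hv hc hA hC hB hD)
  have q2 := conv _ (quad_lower hv hc hA hB hC hD)
  have q3 := conv _ (quad_lower hv hc hA hB hD hC)
  have t1 := conv _ (quad_lower hv hc hA hA hB hC)
  have t2 := conv _ (quad_lower hv hc hA hA hB hD)
  have t3 := conv _ (quad_lower hv hc hA hA hC hD)
  have t4 := conv _ (quad_lower hv hc hB hB hC hD)
  have hn : v 0 ^ 2 + v 1 ^ 2 + v 2 ^ 2 = 1 := by rw [← normsq3, hv]; norm_num
  apply (ENNReal.ofReal_le_iff_le_toReal hfin).mpr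
  rw [← hX]
  have hs := sqrt2_pos
  have hs2 := sqrt2_sq
  obtain ⟨α, hα⟩ : ∃ α, α = v 2 := ⟨_, rfl⟩
  obtain ⟨β, hβ⟩ : ∃ β, β = (v 0 + v 1) * Real.sqrt 2 / 2 := ⟨_, rfl⟩
  obtain ⟨γ, hγ⟩ : ∃ γ, γ = (v 0 - v 1) * Real.sqrt 2 / 2 := ⟨_, rfl⟩
  have hsum : α ^ 2 + β ^ 2 + γ ^ 2 = 1 := by
    rw [hα, hβ, hγ]; linear_combination hn + (v 0 ^ 2 + v 1 ^ 2) / 2 * hs2
  have aux : ∀ d e : ℝ, d = 2 * e → |d| / 2 ≤ X → -X ≤ e ∧ e ≤ X := by
    intro d e h1 h2
    rw [h1, abs_mul, abs_two] at h2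
    exact abs_le.mp (by linarith)
  have Q1 := aux _ (2 * α) (by rw [hα]; simp [det3]; ring) q1
  have Q2 := aux _ (2 * β) (by rw [hβ]; simp [det3]; ring) q2
  have Q3 := aux _ (-2 * γ) (by rw [hγ]; simp [det3]; ring) q3
  have T1 := aux _ (β - γ - α) (by rw [hα, hβ, hγ]; simp [det3]; ring) t1
  have T2 := aux _ (β - γ + α) (by rw [hα, hβ, hγ]; simp [det3]; ring) t2
  have T3 := aux _ (β + γ + α) (by rw [hα, hβ, hγ]; simp [det3]; ring) t3
  have T4 := aux _ (β + γ - α) (by rw [hα, hβ, hγ]; simp [det3]; ring) t4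
  have hX0 : 0 ≤ X := ENNReal.toReal_nonneg
  have l1 : |α| + |β| + |γ| ≤ X := by
    rcases abs_cases α with h | h <;> rcases abs_cases β with h' | h' <;>
      rcases abs_cases γ with h'' | h'' <;> linarith
  have a1 : 2 * |α| ≤ X := by rcases abs_cases α with h | h <;> linarith
  have a2 : 2 * |β| ≤ X := by rcases abs_cases β with h | h <;> linarith
  have a3 : 2 * |γ| ≤ X := by rcases abs_cases γ with h | h <;> linarith
  rw [Real.sqrt_le_iff]
  refine ⟨hX0, ?_⟩
  rw [← sq_abs α, ← sq_abs β, ← sq_abs γ] at hsum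
  nlinarith [mul_le_mul_of_nonneg_right a1 (abs_nonneg α),
    mul_le_mul_of_nonneg_right a2 (abs_nonneg β), mul_le_mul_of_nonneg_right a3 (abs_nonneg γ),
    mul_le_mul_of_nonneg_left l1 hX0]

theorem proj_K0_eq : μHE[2] (proj (!₂[1, 0, 0] : E3) '' K0) = ENNReal.ofReal (Real.sqrt 2) := by
  have hv : ‖(!₂[1, 0, 0] : E3)‖ = 1 := by rw [norm_eq_sqrt3]; simp
  have hv0 : (!₂[1, 0, 0] : E3) ≠ 0 := by intro h; rw [h] at hv; simp at hv
  have h1 := (projL (!₂[1, 0, 0] : E3)).image_convexHull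
    ({!₂[1, 0, 0], !₂[-1, 0, 0], !₂[0, 1, Real.sqrt 2], !₂[0, -1, Real.sqrt 2]} : Set E3)
  simp only [Set.image_insert_eq, Set.image_singleton, projL_apply] at h1
  have h2 : proj (!₂[1, 0, 0] : E3) !₂[1, 0, 0] = proj (!₂[1, 0, 0] : E3) !₂[-1, 0, 0] := by
    rw [proj_self hv0]
    have : (!₂[-1, 0, 0] : E3) = (-1 : ℝ) • !₂[1, 0, 0] := by ext k; fin_cases k <;> simp
    rw [this, proj_smul, proj_self hv0, smul_zero]
  rw [h2, Set.insert_eq_of_mem (Set.mem_insert _ _)] at h1
  have h3 : proj (!₂[1, 0, 0] : E3) '' K0 = convexHull ℝ {proj (!₂[1, 0, 0] : E3) !₂[-1, 0, 0],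
    proj (!₂[1, 0, 0] : E3) !₂[0, 1, Real.sqrt 2],
    proj (!₂[1, 0, 0] : E3) !₂[0, -1, Real.sqrt 2]} := h1
  rw [h3, area_proj_triangle hv0, hv]
  congr 1
  have : det3 ((!₂[0, 1, Real.sqrt 2] : E3) - !₂[-1, 0, 0]) (!₂[0, -1, Real.sqrt 2] - !₂[-1, 0, 0])
      !₂[1, 0, 0] = 2 * Real.sqrt 2 := by simp [det3]; ring
  rw [this, abs_of_nonneg (by positivity)]; ring

end Crest.Agent.R211
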